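import Crest.Agent.S0326.Core

/-!
# S0326 — assembly, part 2: choice of parameters (helper62)
-/

set_option autoImplicit false
open MeasureTheory

namespace Crest.Agent.S0326

/-- only finitely many grid cells meet a compact set -/
theorem finite_cells (D : Set E2) (hD : IsCompact D) (ρ : ℝ) (hρ : 0 < ρ) :
    (cellIdx ρ '' D).Finite := by
  obtain ⟨R, hR⟩ := hD.isBounded.exists_norm_le
  refine Set.Finite.subset ((Set.finite_Icc ⌊-R / ρ⌋ ⌊R / ρ⌋).prod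
    (Set.finite_Icc ⌊-R / ρ⌋ ⌊R / ρ⌋)) ?_
  rintro _ ⟨p, hp, rfl⟩
  have h0 : |p 0| ≤ R := (PiLp.norm_apply_le p 0).trans (hR p hp)
  have h1 : |p 1| ≤ R := (PiLp.norm_apply_le p 1).trans (hR p hp)
  have h0' := abs_le.1 h0
  have h1' := abs_le.1 h1
  simp only [cellIdx, Set.mem_prod, Set.mem_Icc]
  refine ⟨⟨Int.floor_le_floor ?_, Int.floor_le_floor ?_⟩,
    ⟨Int.floor_le_floor ?_, Int.floor_le_floor ?_⟩⟩
  · gcongr; exact h0'.1
  · gcongr; exact h0'.2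
  · gcongr; exact h1'.1
  · gcongr; exact h1'.2

theorem main (D : Set E2) (hD : IsCompact D) (V : E2 → E2) (U : Set E2)
    (hU : IsOpen U) (hDU : D ⊆ U) (hV : ContDiffOn ℝ 1 V U) (L h : ℝ) (hL : 0 < L) (hh : 0 < h)
    (htr : ∀ p ∈ D, LinearMap.trace ℝ E2 (fderiv ℝ V p).toLinearMap = 0)
    (hdet : ∀ p ∈ D, -(L ^ 2)⁻¹ < LinearMap.det (fderiv ℝ V p).toLinearMap ∧
      LinearMap.det (fderiv ℝ V p).toLinearMap ≤ 0)
    (ε : ℝ) (hε : 0 < ε) :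
    ∃ (k : ℕ) (c a b g : Fin k → E2),
      (∀ i, a i ≠ 0 ∧ ‖b i‖ = ‖a i‖ ∧ inner ℝ (a i) (b i) = (0 : ℝ)) ∧
      {z : ℝ × E2 | ∃ p ∈ D, |z.1| ≤ L ∧ z.2 = p + z.1 • V p} ⊆
        ⋃ i, {z : ℝ × E2 | ∃ x ∈ Set.Icc (0 : ℝ) 1, ∃ y ∈ Set.Icc (0 : ℝ) 1,
          z.2 = c i + x • a i + y • b i + z.1 • g i} ∧
      ∑ i, ‖a i‖ ^ 2 / Real.sqrt (1 + (g i 0) ^ 2 + h ^ 2 * (g i 1) ^ 2) ≤
        (∫ p in D, 1 / Real.sqrt (1 + (V p 0) ^ 2 + h ^ 2 * (V p 1) ^ 2)) + ε := by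
  classical
  obtain ⟨M, hM0, hM⟩ := bound_fderiv D U hD hU hDU V hV
  obtain ⟨κ, hκ, hκ'⟩ := det_lower D U hD hU hDU V hV L hL (fun p hp => (hdet p hp).1)
  have hLM : 0 ≤ L * M := mul_nonneg hL.le hM0
  set C : ℝ := (1 + L * M) / κ with hC
  have hCpos : 0 < C := by positivity
  set vD : ℝ := (volume D).toReal with hvD
  have hvD0 : 0 ≤ vD := ENNReal.toReal_nonneg
  set ε1 : ℝ := min 1 (ε / (4 * (vD + 1))) with hε1
  have hε1pos : 0 < ε1 := lt_min one_pos (by positivity)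
  have hε1le : ε1 ≤ 1 := min_le_left _ _
  have hε1le' : ε1 ≤ ε / (4 * (vD + 1)) := min_le_right _ _
  have hs2 : 0 < Real.sqrt 2 := by positivity
  set c1 : ℝ := 2 * Real.sqrt 2 * (C + 1) with hc1
  have hc1pos : 0 < c1 := by positivity
  set t0 : ℝ := ε1 / (8 * (1 + c1)) with ht0
  have ht0pos : 0 < t0 := by positivity
  have ht0eq : (1 + c1) * t0 = ε1 / 8 := by rw [ht0]; field_simp
  have ht0le : t0 ≤ ε1 / 8 := by nlinarith [mul_pos hc1pos ht0pos]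
  have ht0le1 : t0 ≤ 1 := by linarith
  have hΛ : (1 + t0) ^ 2 * (1 + c1 * t0) ^ 2 ≤ 1 + ε1 := by
    have hw : (1 + t0) * (1 + c1 * t0) ≤ 1 + ε1 / 4 := by
      nlinarith [mul_pos hc1pos ht0pos, mul_pos (mul_pos hc1pos ht0pos) ht0pos]
    have hw0 : 0 ≤ (1 + t0) * (1 + c1 * t0) := by positivity
    calc (1 + t0) ^ 2 * (1 + c1 * t0) ^ 2 = ((1 + t0) * (1 + c1 * t0)) ^ 2 := by ring
      _ ≤ (1 + ε1 / 4) ^ 2 := pow_le_pow_left₀ hw0 hw 2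
      _ ≤ 1 + ε1 := by nlinarith
  set τ : ℝ := t0 * t0 / (2 * Real.sqrt 2 * L) with hτ
  have hτpos : 0 < τ := by positivity
  obtain ⟨δ1, hδ1, hdiff⟩ := uniform_diff D U hD hU hDU V hV τ hτpos
  set θ2 : ℝ := ε / (16 * (vD + 1)) with hθ2
  have hθ2pos : 0 < θ2 := by positivity
  obtain ⟨δ2, hδ2, hcont⟩ := uniform_cont D U hD hDU V hV (θ2 / (1 + h)) (by positivity)
  obtain ⟨δ3, hδ3, hthick⟩ :=
    volume_cthickening_le D hD (min 1 (ε / 16)) (lt_min one_pos (by positivity))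
  set ρ4 : ℝ := ε / (16 * (vD + 1) * ((1 + h) * (M + 1) * (Real.sqrt 2 * (C + 1)))) with hρ4
  have hρ4pos : 0 < ρ4 := by positivity
  set ρ : ℝ := min (min (δ1 / Real.sqrt 2) (δ2 / Real.sqrt 2)) (min (δ3 / Real.sqrt 2) ρ4)
    with hρ
  have hρpos : 0 < ρ :=
    lt_min (lt_min (by positivity) (by positivity)) (lt_min (by positivity) hρ4pos)
  have hρ1 : Real.sqrt 2 * ρ ≤ δ1 := by
    have : ρ ≤ δ1 / Real.sqrt 2 := (min_le_left _ _).trans (min_le_left _ _)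
    rw [le_div_iff₀ hs2] at this
    linarith
  have hρ2 : Real.sqrt 2 * ρ ≤ δ2 := by
    have : ρ ≤ δ2 / Real.sqrt 2 := (min_le_left _ _).trans (min_le_right _ _)
    rw [le_div_iff₀ hs2] at this
    linarith
  have hρ3 : Real.sqrt 2 * ρ ≤ δ3 := by
    have : ρ ≤ δ3 / Real.sqrt 2 := (min_le_right _ _).trans (min_le_left _ _)
    rw [le_div_iff₀ hs2] at this
    linarith
  have hρ4' : ρ ≤ ρ4 := (min_le_right _ _).trans (min_le_right _ _)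
  -- the cells meeting `D` and their sample points
  have hfinJ := finite_cells D hD ρ hρpos
  set J : Finset (ℤ × ℤ) := hfinJ.toFinset with hJdef
  have hJ : ∀ p ∈ D, cellIdx ρ p ∈ J := fun p hp => hfinJ.mem_toFinset.2 ⟨p, hp, rfl⟩
  have hex : ∀ k ∈ J, ∃ p, p ∈ D ∧ cellIdx ρ p = k := fun k hk => by
    obtain ⟨p, hp, rfl⟩ := hfinJ.mem_toFinset.1 hk
    exact ⟨p, hp, rfl⟩
  choose! pk hpk using hex
  -- the tiles
  have hτη : L * (τ * (Real.sqrt 2 * ρ)) ≤ t0 * (t0 * ρ) / 2 := by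
    rw [hτ]
    have hLne : L ≠ 0 := hL.ne'
    have hsne : Real.sqrt 2 ≠ 0 := hs2.ne'
    have : L * (t0 * t0 / (2 * Real.sqrt 2 * L) * (Real.sqrt 2 * ρ)) = t0 * (t0 * ρ) / 2 := by
      field_simp
    rw [this]
  obtain ⟨T, c, a, b, g, h1, h2, h3⟩ := core D V L h hL hh htr (fun p hp => (hdet p hp).2)
    M κ hM0 hM hκ hκ' ρ t0 t0 τ hρpos ht0pos ht0pos hτpos.le
    (fun p0 hp0 p hp => hdiff p0 hp0 p (hp.trans hρ1)) hτη J pk hJ hpk
  refine reindex T c a b g _ h _ h1 h2 (h3.trans ?_)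
  -- the estimate
  have hfcont : ContinuousOn (fun p => Jw h (V p)) D :=
    (continuous_Jw h).comp_continuousOn (hV.continuousOn.mono hDU)
  have hosc : ∀ k ∈ J, ∀ p ∈ D, cellIdx ρ p = k → |Jw h (V p) - Jw h (V (pk k))| ≤ θ2 := by
    intro k hk p hp hpk'
    have hn : ‖p - pk k‖ ≤ δ2 :=
      (norm_sub_le_of_cellIdx_eq ρ hρpos p (pk k) (by rw [hpk', (hpk k hk).2])).trans hρ2
    have hv := hcont p hp (pk k) (hpk k hk).1 hn
    have hl := Jw_lipschitz h hh.le (V p) (V (pk k))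
    have h1h : 0 < 1 + h := by linarith
    calc |Jw h (V p) - Jw h (V (pk k))| ≤ (1 + h) * ‖V p - V (pk k)‖ := hl
      _ ≤ (1 + h) * (θ2 / (1 + h)) := mul_le_mul_of_nonneg_left hv h1h.le
      _ = θ2 := by field_simp
  have hR1 := riemann_sum_le D hD (fun p => Jw h (V p)) hfcont (fun p _ => (Jw_pos h _).le)
    (fun p _ => Jw_le_one h _) ρ θ2 hρpos hθ2pos.le J pk hJ hpk hosc
  have hR2 := riemann_sum_le D hD (fun _ => (1 : ℝ)) continuousOn_const (fun _ _ => zero_le_one)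
    (fun _ _ => le_rfl) ρ 0 hρpos le_rfl J pk hJ hpk (fun _ _ _ _ _ => by simp)
  have hΔ := hthick (Real.sqrt 2 * ρ) (by positivity) hρ3
  set Δ : ℝ := (volume (Metric.cthickening (Real.sqrt 2 * ρ) D)).toReal - (volume D).toReal
    with hΔdef
  have hΔ1 : Δ ≤ 1 := hΔ.trans (min_le_left _ _)
  have hΔ2 : Δ ≤ ε / 16 := hΔ.trans (min_le_right _ _)
  have hint1 : (∫ _p in D, (1 : ℝ)) = vD := by
    rw [setIntegral_const, smul_eq_mul, mul_one, hvD]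
    rfl
  rw [hint1] at hR2
  set I0 : ℝ := ∫ p in D, Jw h (V p) with hI0
  have hI0le : I0 ≤ vD := by
    rw [← hint1, hI0]
    refine setIntegral_mono_on (hfcont.integrableOn_compact hD) ?_ hD.measurableSet
      (fun p _ => Jw_le_one h _)
    exact integrableOn_const hD.measure_lt_top.ne
  set θ1 : ℝ := (1 + h) * M * (Real.sqrt 2 * ρ * (C * t0 + 1)) with hθ1
  have hθ10 : 0 ≤ θ1 := by positivity
  have hθ1le : θ1 * (vD + 1) ≤ ε / 16 := by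
    have hb1 : θ1 ≤ (1 + h) * (M + 1) * (Real.sqrt 2 * (C + 1)) * ρ := by
      rw [hθ1]
      have e1 : (1 + h) * M * (Real.sqrt 2 * ρ * (C * t0 + 1)) =
          ((1 + h) * (Real.sqrt 2 * ρ)) * (M * (C * t0 + 1)) := by ring
      have e2 : (1 + h) * (M + 1) * (Real.sqrt 2 * (C + 1)) * ρ =
          ((1 + h) * (Real.sqrt 2 * ρ)) * ((M + 1) * (C + 1)) := by ring
      rw [e1, e2]
      refine mul_le_mul_of_nonneg_left ?_ (by positivity)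
      have : C * t0 ≤ C := by nlinarith
      nlinarith
    have hb2 : (1 + h) * (M + 1) * (Real.sqrt 2 * (C + 1)) * ρ ≤
        (1 + h) * (M + 1) * (Real.sqrt 2 * (C + 1)) * ρ4 :=
      mul_le_mul_of_nonneg_left hρ4' (by positivity)
    have hb3 : (1 + h) * (M + 1) * (Real.sqrt 2 * (C + 1)) * ρ4 * (vD + 1) = ε / 16 := by
      rw [hρ4]
      field_simp
    calc θ1 * (vD + 1) ≤ (1 + h) * (M + 1) * (Real.sqrt 2 * (C + 1)) * ρ4 * (vD + 1) :=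
          mul_le_mul_of_nonneg_right (hb1.trans hb2) (by positivity)
      _ = ε / 16 := hb3
  have hθ2le : θ2 * vD ≤ ε / 16 := by
    rw [hθ2]
    have : ε / (16 * (vD + 1)) * vD = ε / 16 * (vD / (vD + 1)) := by field_simp
    rw [this]
    have hfrac : vD / (vD + 1) ≤ 1 := by
      rw [div_le_one (by positivity)]
      linarith
    nlinarith
  -- rewrite the sum
  have hsum : ∑ k ∈ J, ρ ^ 2 * (Jw h (V (pk k)) +
      (1 + h) * M * (Real.sqrt 2 * ρ * ((1 + L * M) / κ * t0 + 1))) =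
      ∑ k ∈ J, ρ ^ 2 * Jw h (V (pk k)) + θ1 * ∑ k ∈ J, ρ ^ 2 * 1 := by
    rw [Finset.mul_sum, ← Finset.sum_add_distrib]
    refine Finset.sum_congr rfl fun k _ => ?_
    rw [hθ1]
    ring
  have hS0 : 0 ≤ ∑ k ∈ J, ρ ^ 2 * (1 : ℝ) := Finset.sum_nonneg fun k _ => by positivity
  have hS1 : 0 ≤ ∑ k ∈ J, ρ ^ 2 * Jw h (V (pk k)) :=
    Finset.sum_nonneg fun k _ => mul_nonneg (by positivity) (Jw_pos h _).le
  have hSle : ∑ k ∈ J, ρ ^ 2 * Jw h (V (pk k)) + θ1 * ∑ k ∈ J, ρ ^ 2 * 1 ≤ I0 + 3 * ε / 16 := by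
    have hA : θ1 * ∑ k ∈ J, ρ ^ 2 * (1 : ℝ) ≤ θ1 * (vD + 1) :=
      mul_le_mul_of_nonneg_left (by linarith) hθ10
    linarith
  have hc1eq : 2 * Real.sqrt 2 * ((1 + L * M) / κ + 1) = c1 := by rw [hc1]
  rw [hsum, hc1eq]
  have hfinal : (1 + t0) ^ 2 * (1 + c1 * t0) ^ 2 *
      (∑ k ∈ J, ρ ^ 2 * Jw h (V (pk k)) + θ1 * ∑ k ∈ J, ρ ^ 2 * 1) ≤ I0 + ε := by
    have hSnn : 0 ≤ ∑ k ∈ J, ρ ^ 2 * Jw h (V (pk k)) + θ1 * ∑ k ∈ J, ρ ^ 2 * 1 :=
      add_nonneg hS1 (mul_nonneg hθ10 hS0)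
    have hε1vD : ε1 * vD ≤ ε / 4 := by
      have h4 : ε / (4 * (vD + 1)) * vD = ε / 4 * (vD / (vD + 1)) := by field_simp
      have hfrac : vD / (vD + 1) ≤ 1 := by
        rw [div_le_one (by positivity)]
        linarith
      have : ε1 * vD ≤ ε / (4 * (vD + 1)) * vD := mul_le_mul_of_nonneg_right hε1le' hvD0
      nlinarith
    calc (1 + t0) ^ 2 * (1 + c1 * t0) ^ 2 *
          (∑ k ∈ J, ρ ^ 2 * Jw h (V (pk k)) + θ1 * ∑ k ∈ J, ρ ^ 2 * 1)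
        ≤ (1 + ε1) * (∑ k ∈ J, ρ ^ 2 * Jw h (V (pk k)) + θ1 * ∑ k ∈ J, ρ ^ 2 * 1) :=
          mul_le_mul_of_nonneg_right hΛ hSnn
      _ ≤ (1 + ε1) * (I0 + 3 * ε / 16) := mul_le_mul_of_nonneg_left hSle (by linarith)
      _ ≤ I0 + ε := by nlinarith
  exact hfinal

end Crest.Agent.S0326
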