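import Crest.Agent.S0326.FrameC

set_option autoImplicit false
open MeasureTheory

namespace Crest.Agent.S0326

private theorem calc_arg_pos (h : ℝ) (g : E2) : 0 < 1 + (g 0) ^ 2 + h ^ 2 * (g 1) ^ 2 := by
  nlinarith [sq_nonneg (g 0), sq_nonneg (h * g 1)]

private theorem calc_one_le_sqrt (h : ℝ) (g : E2) :
    1 ≤ Real.sqrt (1 + (g 0) ^ 2 + h ^ 2 * (g 1) ^ 2) := by
  rw [Real.one_le_sqrt]
  nlinarith [sq_nonneg (g 0), sq_nonneg (h * g 1)]

theorem Jw_pos (h : ℝ) (g : E2) : 0 < Jw h g := by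
  unfold Jw
  have := calc_one_le_sqrt h g
  positivity

theorem Jw_le_one (h : ℝ) (g : E2) : Jw h g ≤ 1 := by
  unfold Jw
  have h1 := calc_one_le_sqrt h g
  rw [div_le_one (by linarith)]
  exact h1

private theorem calc_abs_apply_le (g : E2) (i : Fin 2) : |g i| ≤ ‖g‖ := by
  have h := PiLp.norm_apply_le g i
  rwa [Real.norm_eq_abs] at h

private theorem calc_sqrt_diff (h : ℝ) (hh : 0 ≤ h) (x y x' y' : ℝ) :
    |Real.sqrt (1 + x ^ 2 + h ^ 2 * y ^ 2) - Real.sqrt (1 + x' ^ 2 + h ^ 2 * y' ^ 2)|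
      ≤ |x - x'| + h * |y - y'| := by
  set A := 1 + x ^ 2 + h ^ 2 * y ^ 2 with hA
  set B := 1 + x' ^ 2 + h ^ 2 * y' ^ 2 with hB
  have hApos : 0 < A := by nlinarith [sq_nonneg x, sq_nonneg (h * y)]
  have hBpos : 0 < B := by nlinarith [sq_nonneg x', sq_nonneg (h * y')]
  set a := Real.sqrt A with ha
  set b := Real.sqrt B with hb
  have haa : a * a = A := Real.mul_self_sqrt hApos.le
  have hbb : b * b = B := Real.mul_self_sqrt hBpos.le
  have ha0 : 0 < a := Real.sqrt_pos.mpr hApos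
  have hb0 : 0 < b := Real.sqrt_pos.mpr hBpos
  have hxa : |x| ≤ a := Real.abs_le_sqrt (by nlinarith [sq_nonneg (h * y)])
  have hxb : |x'| ≤ b := Real.abs_le_sqrt (by nlinarith [sq_nonneg (h * y')])
  have hya : h * |y| ≤ a := by
    have : |h * y| ≤ a := Real.abs_le_sqrt (by nlinarith [sq_nonneg x])
    rwa [abs_mul, abs_of_nonneg hh] at this
  have hyb : h * |y'| ≤ b := by
    have : |h * y'| ≤ b := Real.abs_le_sqrt (by nlinarith [sq_nonneg x'])
    rwa [abs_mul, abs_of_nonneg hh] at this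
  have key : (a - b) * (a + b) = (x - x') * (x + x') + h ^ 2 * ((y - y') * (y + y')) := by
    have : (a - b) * (a + b) = a * a - b * b := by ring
    rw [this, haa, hbb, hA, hB]; ring
  have hsum : 0 < a + b := by linarith
  have h1 : |(x - x') * (x + x')| ≤ |x - x'| * (a + b) := by
    rw [abs_mul]
    apply mul_le_mul_of_nonneg_left _ (abs_nonneg _)
    calc |x + x'| ≤ |x| + |x'| := abs_add_le _ _
      _ ≤ a + b := by linarith
  have h2 : |h ^ 2 * ((y - y') * (y + y'))| ≤ h * |y - y'| * (a + b) := by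
    rw [abs_mul, abs_mul, abs_of_nonneg (by positivity : (0:ℝ) ≤ h ^ 2)]
    have h3 : h * |y + y'| ≤ a + b := by
      calc h * |y + y'| ≤ h * (|y| + |y'|) := mul_le_mul_of_nonneg_left (abs_add_le _ _) hh
        _ = h * |y| + h * |y'| := by ring
        _ ≤ a + b := by linarith
    calc h ^ 2 * (|y - y'| * |y + y'|) = h * |y - y'| * (h * |y + y'|) := by ring
      _ ≤ h * |y - y'| * (a + b) :=
        mul_le_mul_of_nonneg_left h3 (mul_nonneg hh (abs_nonneg _))
  have h4 : |a - b| * (a + b) ≤ (|x - x'| + h * |y - y'|) * (a + b) := by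
    calc |a - b| * (a + b) = |(a - b) * (a + b)| := by
          rw [abs_mul, abs_of_pos hsum]
      _ = |(x - x') * (x + x') + h ^ 2 * ((y - y') * (y + y'))| := by rw [key]
      _ ≤ |(x - x') * (x + x')| + |h ^ 2 * ((y - y') * (y + y'))| := abs_add_le _ _
      _ ≤ |x - x'| * (a + b) + h * |y - y'| * (a + b) := add_le_add h1 h2
      _ = (|x - x'| + h * |y - y'|) * (a + b) := by ring
  exact le_of_mul_le_mul_right h4 hsum

theorem Jw_lipschitz (h : ℝ) (hh : 0 ≤ h) (g g' : E2) : |Jw h g - Jw h g'| ≤ (1 + h) * ‖g - g'‖ := by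
  unfold Jw
  have ha := calc_one_le_sqrt h g
  have hb := calc_one_le_sqrt h g'
  set a := Real.sqrt (1 + (g 0) ^ 2 + h ^ 2 * (g 1) ^ 2) with ha_def
  set b := Real.sqrt (1 + (g' 0) ^ 2 + h ^ 2 * (g' 1) ^ 2) with hb_def
  have hab : |a - b| ≤ |g 0 - g' 0| + h * |g 1 - g' 1| := calc_sqrt_diff h hh _ _ _ _
  have h0 : |g 0 - g' 0| ≤ ‖g - g'‖ := by
    have := calc_abs_apply_le (g - g') 0
    simpa using this
  have h1 : |g 1 - g' 1| ≤ ‖g - g'‖ := by
    have := calc_abs_apply_le (g - g') 1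
    simpa using this
  have hapos : 0 < a := by linarith
  have hbpos : 0 < b := by linarith
  have hdiff : 1 / a - 1 / b = (b - a) / (a * b) := by
    field_simp
  rw [hdiff, abs_div, abs_of_pos (mul_pos hapos hbpos)]
  have hab1 : 1 ≤ a * b := by nlinarith
  have h5 : |b - a| / (a * b) ≤ |b - a| := by
    apply div_le_self (abs_nonneg _) hab1
  have h6 : |b - a| = |a - b| := abs_sub_comm _ _
  have h7 : h * |g 1 - g' 1| ≤ h * ‖g - g'‖ := mul_le_mul_of_nonneg_left h1 hh
  calc |b - a| / (a * b) ≤ |b - a| := h5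
    _ = |a - b| := h6
    _ ≤ |g 0 - g' 0| + h * |g 1 - g' 1| := hab
    _ ≤ ‖g - g'‖ + h * ‖g - g'‖ := add_le_add h0 h7
    _ = (1 + h) * ‖g - g'‖ := by ring

theorem continuous_Jw (h : ℝ) : Continuous (Jw h) := by
  have hL : LipschitzWith (Real.toNNReal (1 + |h|)) (Jw |h|) := by
    apply LipschitzWith.of_dist_le_mul
    intro g g'
    rw [Real.dist_eq, dist_eq_norm, Real.coe_toNNReal _ (by positivity)]
    exact Jw_lipschitz |h| (abs_nonneg h) g g'
  have : Jw h = Jw |h| := by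
    funext g
    unfold Jw
    rw [sq_abs]
  rw [this]
  exact hL.continuous

/-- uniform differentiability of a `C¹` map near a compact set -/
theorem uniform_diff (D U : Set E2) (hD : IsCompact D) (hU : IsOpen U) (hDU : D ⊆ U) (V : E2 → E2)
    (hV : ContDiffOn ℝ 1 V U) (τ : ℝ) (hτ : 0 < τ) :
    ∃ δ > 0, ∀ p0 ∈ D, ∀ p : E2, ‖p - p0‖ ≤ δ →
      ‖V p - V p0 - fderiv ℝ V p0 (p - p0)‖ ≤ τ * ‖p - p0‖ := by
  obtain ⟨δ₁, hδ₁, hK⟩ := hD.exists_cthickening_subset_open hU hDU
  have hKc : IsCompact (Metric.cthickening δ₁ D) := hD.cthickening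
  have hcont : ContinuousOn (fderiv ℝ V) U := hV.continuousOn_fderiv_of_isOpen hU le_rfl
  have huc : UniformContinuousOn (fderiv ℝ V) (Metric.cthickening δ₁ D) :=
    hKc.uniformContinuousOn_of_continuous (hcont.mono hK)
  rw [Metric.uniformContinuousOn_iff] at huc
  obtain ⟨δ₂, hδ₂, huc⟩ := huc τ hτ
  refine ⟨min δ₁ (δ₂ / 2), lt_min hδ₁ (by positivity), ?_⟩
  intro p0 hp0 p hp
  set δ := min δ₁ (δ₂ / 2) with hδ
  have hball : Metric.closedBall p0 δ ⊆ Metric.cthickening δ₁ D := by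
    intro q hq
    have : Metric.closedBall p0 δ ⊆ Metric.cthickening δ D :=
      Metric.closedBall_subset_cthickening hp0 δ
    exact Metric.cthickening_mono (min_le_left _ _) D (this hq)
  have hp0K : p0 ∈ Metric.cthickening δ₁ D := Metric.self_subset_cthickening D hp0
  set A := fderiv ℝ V p0 with hA
  have hderiv : ∀ q ∈ Metric.closedBall p0 δ,
      HasFDerivWithinAt (fun q => V q - A q) (fderiv ℝ V q - A) (Metric.closedBall p0 δ) q := by
    intro q hq
    have hqU : q ∈ U := hK (hball hq)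
    have hd : DifferentiableAt ℝ V q :=
      (hV.differentiableOn one_ne_zero q hqU).differentiableAt (hU.mem_nhds hqU)
    exact (hd.hasFDerivAt.sub A.hasFDerivAt).hasFDerivWithinAt
  have hbound : ∀ q ∈ Metric.closedBall p0 δ, ‖fderiv ℝ V q - A‖ ≤ τ := by
    intro q hq
    have hdist : dist q p0 < δ₂ := by
      have h1 : dist q p0 ≤ δ := hq
      have h2 : δ ≤ δ₂ / 2 := min_le_right _ _
      linarith
    have := huc q (hball hq) p0 hp0K hdist
    rw [dist_eq_norm] at this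
    exact this.le
  have hp_mem : p ∈ Metric.closedBall p0 δ := by
    rw [Metric.mem_closedBall, dist_eq_norm]; exact hp
  have hp0_mem : p0 ∈ Metric.closedBall p0 δ :=
    Metric.mem_closedBall_self (le_min hδ₁.le (by positivity))
  have := (convex_closedBall p0 δ).norm_image_sub_le_of_norm_hasFDerivWithin_le hderiv hbound
    hp0_mem hp_mem
  have heq : V p - A p - (V p0 - A p0) = V p - V p0 - A (p - p0) := by
    rw [map_sub]; abel
  rw [heq] at this
  exact this

theorem uniform_cont (D U : Set E2) (hD : IsCompact D) (hDU : D ⊆ U) (V : E2 → E2)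
    (hV : ContDiffOn ℝ 1 V U) (τ : ℝ) (hτ : 0 < τ) :
    ∃ δ > 0, ∀ p ∈ D, ∀ q ∈ D, ‖p - q‖ ≤ δ → ‖V p - V q‖ ≤ τ := by
  have huc : UniformContinuousOn V D :=
    hD.uniformContinuousOn_of_continuous (hV.continuousOn.mono hDU)
  rw [Metric.uniformContinuousOn_iff] at huc
  obtain ⟨δ, hδ, huc⟩ := huc τ hτ
  refine ⟨δ / 2, by positivity, ?_⟩
  intro p hp q hq hpq
  have hdist : dist p q < δ := by
    rw [dist_eq_norm]; linarith
  have := huc p hp q hq hdist
  rw [dist_eq_norm] at this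
  exact this.le

theorem bound_fderiv (D U : Set E2) (hD : IsCompact D) (hU : IsOpen U) (hDU : D ⊆ U) (V : E2 → E2)
    (hV : ContDiffOn ℝ 1 V U) : ∃ M : ℝ, 0 ≤ M ∧ ∀ p ∈ D, ‖fderiv ℝ V p‖ ≤ M := by
  have hcont : ContinuousOn (fderiv ℝ V) D :=
    (hV.continuousOn_fderiv_of_isOpen hU le_rfl).mono hDU
  obtain ⟨C, hC⟩ := hD.exists_bound_of_continuousOn hcont
  exact ⟨max C 0, le_max_right _ _, fun p hp => (hC p hp).trans (le_max_left _ _)⟩

theorem det_lower (D U : Set E2) (hD : IsCompact D) (hU : IsOpen U) (hDU : D ⊆ U) (V : E2 → E2)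
    (hV : ContDiffOn ℝ 1 V U) (L : ℝ) (hL : 0 < L)
    (hdet : ∀ p ∈ D, -(L ^ 2)⁻¹ < LinearMap.det (fderiv ℝ V p).toLinearMap) :
    ∃ κ : ℝ, 0 < κ ∧ ∀ p ∈ D, κ ≤ 1 + L ^ 2 * LinearMap.det (fderiv ℝ V p).toLinearMap := by
  rcases D.eq_empty_or_nonempty with hne | hne
  · exact ⟨1, one_pos, by simp [hne]⟩
  have hcont : ContinuousOn (fderiv ℝ V) D :=
    (hV.continuousOn_fderiv_of_isOpen hU le_rfl).mono hDU
  have hdetc : Continuous fun f : E2 →L[ℝ] E2 => LinearMap.det f.toLinearMap :=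
    ContinuousLinearMap.continuous_det
  have hF : ContinuousOn (fun p => 1 + L ^ 2 * LinearMap.det (fderiv ℝ V p).toLinearMap) D :=
    continuousOn_const.add (continuousOn_const.mul (hdetc.comp_continuousOn hcont))
  obtain ⟨p₀, hp₀, hmin⟩ := hD.exists_isMinOn hne hF
  refine ⟨1 + L ^ 2 * LinearMap.det (fderiv ℝ V p₀).toLinearMap, ?_, fun p hp => hmin hp⟩
  have h1 := hdet p₀ hp₀
  have hL2 : 0 < L ^ 2 := by positivity
  have h2 : L ^ 2 * (-(L ^ 2)⁻¹) < L ^ 2 * LinearMap.det (fderiv ℝ V p₀).toLinearMap :=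
    mul_lt_mul_of_pos_left h1 hL2
  have h3 : L ^ 2 * (-(L ^ 2)⁻¹) = -1 := by
    field_simp
  linarith

/-- the cthickenings of a compact set have volume tending to its volume -/
theorem volume_cthickening_le (D : Set E2) (hD : IsCompact D) (ε : ℝ) (hε : 0 < ε) :
    ∃ δ > 0, ∀ x : ℝ, 0 ≤ x → x ≤ δ →
      (volume (Metric.cthickening x D)).toReal - (volume D).toReal ≤ ε := by
  have ht : Filter.Tendsto (fun r => volume (Metric.cthickening r D)) (nhds 0) (nhds (volume D)) :=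
    tendsto_measure_cthickening_of_isCompact hD
  have hfin : volume D ≠ ⊤ := hD.measure_lt_top.ne
  have ht' : Filter.Tendsto (fun r => (volume (Metric.cthickening r D)).toReal) (nhds 0)
      (nhds (volume D).toReal) :=
    (ENNReal.tendsto_toReal hfin).comp ht
  rw [Metric.tendsto_nhds_nhds] at ht'
  obtain ⟨δ, hδ, hδ'⟩ := ht' ε hε
  refine ⟨δ / 2, by positivity, ?_⟩
  intro x hx0 hx
  have hdist : dist x 0 < δ := by
    rw [Real.dist_eq, sub_zero, abs_of_nonneg hx0]; linarith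
  have := hδ' hdist
  rw [Real.dist_eq] at this
  exact (le_abs_self _).trans this.le

end Crest.Agent.S0326
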