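import Crest.Agent.S0326.Vol

set_option autoImplicit false
open MeasureTheory

namespace Crest.Agent.S0326

/-- a coordinate is bounded by the norm -/
theorem pack_abs_coord_le (u : E2) (i : Fin 2) : |u i| ≤ ‖u‖ := by
  have h := PiLp.norm_apply_le u i
  simpa [Real.norm_eq_abs] using h

/-- a point of the fine cell number `mn` is within `√2 r` of the lattice point number `mn` -/
theorem pack_norm_sub_lat_le (p0 : E2) (c s r : ℝ) (hcs : c ^ 2 + s ^ 2 = 1) (hr : 0 < r)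
    (mn : ℤ × ℤ) (q : E2) (hq : fineIdx p0 c s r q = mn) :
    ‖q - lat p0 c s r mn‖ ≤ Real.sqrt 2 * r := by
  obtain ⟨X, hX⟩ : ∃ X : ℝ, X = inner ℝ (frA c s) (q - p0) / r := ⟨_, rfl⟩
  obtain ⟨Y, hY⟩ : ∃ Y : ℝ, Y = inner ℝ (frB c s) (q - p0) / r := ⟨_, rfl⟩
  have h1 : ⌊X⌋ = mn.1 := by rw [← hq, hX]; rfl
  have h2 : ⌊Y⌋ = mn.2 := by rw [← hq, hY]; rfl
  have hXr : inner ℝ (frA c s) (q - p0) = r * X := by rw [hX]; field_simp
  have hYr : inner ℝ (frB c s) (q - p0) = r * Y := by rw [hY]; field_simp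
  have hdec : q - p0 = (r * X) • frA c s + (r * Y) • frB c s := by
    have h := frame_decomp c s hcs (q - p0)
    rw [hXr, hYr] at h
    exact h
  have hrep : q - lat p0 c s r mn
      = (r * (X - (mn.1 : ℝ))) • frA c s + (r * (Y - (mn.2 : ℝ))) • frB c s := by
    have e : q - lat p0 c s r mn
        = (q - p0) - (r * (mn.1 : ℝ)) • frA c s - (r * (mn.2 : ℝ)) • frB c s := by
      unfold lat
      abel
    rw [e, hdec]
    module
  have hx0 : 0 ≤ X - (mn.1 : ℝ) := by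
    have := Int.floor_le X
    rw [h1] at this
    linarith
  have hx1 : X - (mn.1 : ℝ) < 1 := by
    have := Int.lt_floor_add_one X
    rw [h1] at this
    linarith
  have hy0 : 0 ≤ Y - (mn.2 : ℝ) := by
    have := Int.floor_le Y
    rw [h2] at this
    linarith
  have hy1 : Y - (mn.2 : ℝ) < 1 := by
    have := Int.lt_floor_add_one Y
    rw [h2] at this
    linarith
  have hsq : ‖q - lat p0 c s r mn‖ ^ 2 ≤ (Real.sqrt 2 * r) ^ 2 := by
    rw [hrep, norm_sq_frame c s hcs]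
    have hs2 : (Real.sqrt 2 * r) ^ 2 = 2 * r ^ 2 := by
      rw [mul_pow, Real.sq_sqrt (by norm_num : (0 : ℝ) ≤ 2)]
    rw [hs2]
    have hr2 : 0 ≤ r ^ 2 := by positivity
    have ha : (X - (mn.1 : ℝ)) ^ 2 ≤ 1 := by nlinarith
    have hb : (Y - (mn.2 : ℝ)) ^ 2 ≤ 1 := by nlinarith
    have ea : (r * (X - (mn.1 : ℝ))) ^ 2 = r ^ 2 * (X - (mn.1 : ℝ)) ^ 2 := by ring
    have eb : (r * (Y - (mn.2 : ℝ))) ^ 2 = r ^ 2 * (Y - (mn.2 : ℝ)) ^ 2 := by ring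
    rw [ea, eb]
    nlinarith [mul_le_mul_of_nonneg_left ha hr2, mul_le_mul_of_nonneg_left hb hr2]
  exact (sq_le_sq₀ (norm_nonneg _) (by positivity)).mp hsq

/-- the fine cell of a lattice point near the coarse cell `k` lies in the enlarged box -/
theorem pack_subset_box (ρ r d : ℝ) (hρ : 0 < ρ) (hr : 0 < r) (c s : ℝ)
    (hcs : c ^ 2 + s ^ 2 = 1) (p0 : E2) (k mn : ℤ × ℤ) (p : E2) (hp : cellIdx ρ p = k)
    (hpd : ‖lat p0 c s r mn - p‖ ≤ d) :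
    {q : E2 | fineIdx p0 c s r q = mn} ⊆
      {u : E2 | (k.1 : ℝ) * ρ - (d + Real.sqrt 2 * r) ≤ u 0 ∧
        u 0 ≤ ((k.1 : ℝ) + 1) * ρ + (d + Real.sqrt 2 * r) ∧
        (k.2 : ℝ) * ρ - (d + Real.sqrt 2 * r) ≤ u 1 ∧
        u 1 ≤ ((k.2 : ℝ) + 1) * ρ + (d + Real.sqrt 2 * r)} := by
  intro q hq
  have h1 := pack_norm_sub_lat_le p0 c s r hcs hr mn q hq
  have h2 : ‖q - p‖ ≤ d + Real.sqrt 2 * r := by
    calc ‖q - p‖ = ‖(q - lat p0 c s r mn) + (lat p0 c s r mn - p)‖ := by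
          congr 1
          abel
      _ ≤ ‖q - lat p0 c s r mn‖ + ‖lat p0 c s r mn - p‖ := norm_add_le _ _
      _ ≤ Real.sqrt 2 * r + d := add_le_add h1 hpd
      _ = d + Real.sqrt 2 * r := by ring
  have hk1 : ⌊p 0 / ρ⌋ = k.1 := by rw [← hp]; rfl
  have hk2 : ⌊p 1 / ρ⌋ = k.2 := by rw [← hp]; rfl
  have a1 : (k.1 : ℝ) * ρ ≤ p 0 := by
    have := Int.floor_le (p 0 / ρ)
    rw [hk1] at this
    exact (le_div_iff₀ hρ).mp this
  have a2 : p 0 < ((k.1 : ℝ) + 1) * ρ := by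
    have := Int.lt_floor_add_one (p 0 / ρ)
    rw [hk1] at this
    exact (div_lt_iff₀ hρ).mp this
  have b1 : (k.2 : ℝ) * ρ ≤ p 1 := by
    have := Int.floor_le (p 1 / ρ)
    rw [hk2] at this
    exact (le_div_iff₀ hρ).mp this
  have b2 : p 1 < ((k.2 : ℝ) + 1) * ρ := by
    have := Int.lt_floor_add_one (p 1 / ρ)
    rw [hk2] at this
    exact (div_lt_iff₀ hρ).mp this
  have c0 := (pack_abs_coord_le (q - p) 0).trans h2
  have c1 := (pack_abs_coord_le (q - p) 1).trans h2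
  have e0 : (q - p) 0 = q 0 - p 0 := rfl
  have e1 : (q - p) 1 = q 1 - p 1 := rfl
  rw [e0, abs_le] at c0
  rw [e1, abs_le] at c1
  refine ⟨by linarith [c0.1], by linarith [c0.2], by linarith [c1.1], by linarith [c1.2]⟩

/-- Packing bound: lattice points of the fine lattice (mesh `r`, any frame, any base point) that lie
within distance `d` of the coarse cell number `k` (side `ρ`) number at most
`(ρ + 2 (d + √2 r))² / r²`. -/
theorem pack (ρ r d : ℝ) (hρ : 0 < ρ) (hr : 0 < r) (hd : 0 ≤ d) (c s : ℝ) (hcs : c ^ 2 + s ^ 2 = 1)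
    (p0 : E2) (k : ℤ × ℤ) (I : Finset (ℤ × ℤ))
    (hI : ∀ mn ∈ I, ∃ p : E2, cellIdx ρ p = k ∧ ‖lat p0 c s r mn - p‖ ≤ d) :
    (I.card : ℝ) * r ^ 2 ≤ (ρ + 2 * (d + Real.sqrt 2 * r)) ^ 2 := by
  have hδ0 : 0 ≤ d + Real.sqrt 2 * r := by positivity
  have hvolBox : volume {u : E2 | (k.1 : ℝ) * ρ - (d + Real.sqrt 2 * r) ≤ u 0 ∧
        u 0 ≤ ((k.1 : ℝ) + 1) * ρ + (d + Real.sqrt 2 * r) ∧
        (k.2 : ℝ) * ρ - (d + Real.sqrt 2 * r) ≤ u 1 ∧
        u 1 ≤ ((k.2 : ℝ) + 1) * ρ + (d + Real.sqrt 2 * r)}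
      = ENNReal.ofReal ((ρ + 2 * (d + Real.sqrt 2 * r)) ^ 2) := by
    rw [volume_box _ _ _ _ (by linarith) (by linarith)]
    congr 1
    ring
  have hmeas : ∀ mn : ℤ × ℤ, MeasurableSet {q : E2 | fineIdx p0 c s r q = mn} := fun mn =>
    (measurable_fineIdx p0 c s r) (measurableSet_singleton mn)
  have hdisj : Set.PairwiseDisjoint (↑I : Set (ℤ × ℤ))
      (fun mn => {q : E2 | fineIdx p0 c s r q = mn}) := by
    intro a _ b _ hab
    rw [Function.onFun, Set.disjoint_left]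
    intro q hqa hqb
    exact hab (hqa.symm.trans hqb)
  have hsub : (⋃ mn ∈ I, {q : E2 | fineIdx p0 c s r q = mn}) ⊆
      {u : E2 | (k.1 : ℝ) * ρ - (d + Real.sqrt 2 * r) ≤ u 0 ∧
        u 0 ≤ ((k.1 : ℝ) + 1) * ρ + (d + Real.sqrt 2 * r) ∧
        (k.2 : ℝ) * ρ - (d + Real.sqrt 2 * r) ≤ u 1 ∧
        u 1 ≤ ((k.2 : ℝ) + 1) * ρ + (d + Real.sqrt 2 * r)} := by
    refine Set.iUnion₂_subset fun mn hmn => ?_
    obtain ⟨p, hp, hpd⟩ := hI mn hmn
    exact pack_subset_box ρ r d hρ hr c s hcs p0 k mn p hp hpd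
  have hsum : volume (⋃ mn ∈ I, {q : E2 | fineIdx p0 c s r q = mn})
      = ∑ mn ∈ I, volume {q : E2 | fineIdx p0 c s r q = mn} :=
    measure_biUnion_finset hdisj (fun mn _ => hmeas mn)
  have hle := measure_mono (μ := volume) hsub
  rw [hsum, hvolBox] at hle
  simp only [volume_fineCell p0 c s r hcs hr, Finset.sum_const, nsmul_eq_mul] at hle
  have h3 : ENNReal.ofReal ((I.card : ℝ) * r ^ 2)
      ≤ ENNReal.ofReal ((ρ + 2 * (d + Real.sqrt 2 * r)) ^ 2) := by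
    rw [ENNReal.ofReal_mul (Nat.cast_nonneg _), ENNReal.ofReal_natCast]
    exact hle
  exact (ENNReal.ofReal_le_ofReal_iff (by positivity)).mp h3

/-- consequence: the set of such lattice points is finite -/
theorem finite_near (ρ r d : ℝ) (hρ : 0 < ρ) (hr : 0 < r) (hd : 0 ≤ d) (c s : ℝ)
    (hcs : c ^ 2 + s ^ 2 = 1) (p0 : E2) (k : ℤ × ℤ) :
    {mn : ℤ × ℤ | ∃ p : E2, cellIdx ρ p = k ∧ ‖lat p0 c s r mn - p‖ ≤ d}.Finite := by
  by_contra hinf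
  have hinf' : Set.Infinite {mn : ℤ × ℤ | ∃ p : E2, cellIdx ρ p = k ∧ ‖lat p0 c s r mn - p‖ ≤ d} :=
    hinf
  obtain ⟨N, hN⟩ := exists_nat_gt ((ρ + 2 * (d + Real.sqrt 2 * r)) ^ 2 / r ^ 2)
  obtain ⟨t, hts, htc⟩ := hinf'.exists_subset_card_eq N
  have h := pack ρ r d hρ hr hd c s hcs p0 k t (fun mn hmn => hts hmn)
  rw [htc] at h
  have hr2 : 0 < r ^ 2 := by positivity
  rw [div_lt_iff₀ hr2] at hN
  linarith

end Crest.Agent.S0326
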