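import Crest.Agent.S0326.Vol

set_option autoImplicit false
open MeasureTheory

namespace Crest.Agent.S0326

/-- two points in the same grid cell of side `ρ` are at distance `≤ √2 ρ` -/
theorem norm_sub_le_of_cellIdx_eq (ρ : ℝ) (hρ : 0 < ρ) (p q : E2) (h : cellIdx ρ p = cellIdx ρ q) :
    ‖p - q‖ ≤ Real.sqrt 2 * ρ := by
  have h0 : ⌊p 0 / ρ⌋ = ⌊q 0 / ρ⌋ := congrArg Prod.fst h
  have h1 : ⌊p 1 / ρ⌋ = ⌊q 1 / ρ⌋ := congrArg Prod.snd h
  have a0 : |p 0 / ρ - q 0 / ρ| < 1 := Int.abs_sub_lt_one_of_floor_eq_floor h0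
  have a1 : |p 1 / ρ - q 1 / ρ| < 1 := Int.abs_sub_lt_one_of_floor_eq_floor h1
  have b0 : |p 0 - q 0| < ρ := by
    have e : p 0 / ρ - q 0 / ρ = (p 0 - q 0) / ρ := by ring
    rw [e, abs_div, abs_of_pos hρ, div_lt_one hρ] at a0
    exact a0
  have b1 : |p 1 - q 1| < ρ := by
    have e : p 1 / ρ - q 1 / ρ = (p 1 - q 1) / ρ := by ring
    rw [e, abs_div, abs_of_pos hρ, div_lt_one hρ] at a1
    exact a1
  have hn : ‖p - q‖ ^ 2 = (p 0 - q 0) ^ 2 + (p 1 - q 1) ^ 2 := by
    rw [EuclideanSpace.norm_sq_eq]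
    simp [Fin.sum_univ_two]
  have c0 : (p 0 - q 0) ^ 2 < ρ ^ 2 := by
    have := abs_lt.mp b0
    nlinarith
  have c1 : (p 1 - q 1) ^ 2 < ρ ^ 2 := by
    have := abs_lt.mp b1
    nlinarith
  have hs : (0:ℝ) ≤ Real.sqrt 2 := Real.sqrt_nonneg 2
  have hs2 : Real.sqrt 2 ^ 2 = 2 := Real.sq_sqrt (by norm_num)
  have hsq : ‖p - q‖ ^ 2 ≤ (Real.sqrt 2 * ρ) ^ 2 := by
    rw [hn, mul_pow, hs2]
    linarith
  exact le_of_sq_le_sq hsq (by positivity)

/-- upper Riemann sum over the grid cells meeting `D`, with one sample point in `D` per cell -/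
theorem riemann_sum_le (D : Set E2) (hD : IsCompact D) (f : E2 → ℝ) (hf : ContinuousOn f D)
    (hf0 : ∀ p ∈ D, 0 ≤ f p) (hf1 : ∀ p ∈ D, f p ≤ 1) (ρ θ : ℝ) (hρ : 0 < ρ) (hθ : 0 ≤ θ)
    (J : Finset (ℤ × ℤ)) (pk : ℤ × ℤ → E2) (hJ : ∀ p ∈ D, cellIdx ρ p ∈ J)
    (hpk : ∀ k ∈ J, pk k ∈ D ∧ cellIdx ρ (pk k) = k)
    (hosc : ∀ k ∈ J, ∀ p ∈ D, cellIdx ρ p = k → |f p - f (pk k)| ≤ θ) :
    ∑ k ∈ J, ρ ^ 2 * f (pk k) ≤
      (∫ p in D, f p) + θ * (volume D).toReal +
        ((volume (Metric.cthickening (Real.sqrt 2 * ρ) D)).toReal - (volume D).toReal) := by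
  classical
  set Q : ℤ × ℤ → Set E2 := fun k => {p : E2 | cellIdx ρ p = k} with hQ
  have hQm : ∀ k, MeasurableSet (Q k) := fun k =>
    measurable_cellIdx ρ (measurableSet_singleton k)
  have hDm : MeasurableSet D := hD.isClosed.measurableSet
  have hDfin : volume D ≠ ⊤ := hD.measure_lt_top.ne
  have hQvol : ∀ k, volume (Q k) = ENNReal.ofReal (ρ ^ 2) := fun k => volume_cell ρ hρ k
  have hfint : IntegrableOn f D volume := hf.integrableOn_compact hD
  set A : ℤ × ℤ → Set E2 := fun k => Q k ∩ D with hA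
  set B : ℤ × ℤ → Set E2 := fun k => Q k \ D with hB
  have hAm : ∀ k, MeasurableSet (A k) := fun k => (hQm k).inter hDm
  have hBm : ∀ k, MeasurableSet (B k) := fun k => (hQm k).diff hDm
  have hAfin : ∀ k, volume (A k) ≠ ⊤ := fun k =>
    ((measure_mono Set.inter_subset_left).trans_lt
      (by rw [hQvol]; exact ENNReal.ofReal_lt_top)).ne
  have hBfin : ∀ k, volume (B k) ≠ ⊤ := fun k =>
    ((measure_mono Set.sdiff_subset).trans_lt
      (by rw [hQvol]; exact ENNReal.ofReal_lt_top)).ne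
  have hsplit : ∀ k, ρ ^ 2 = (volume (A k)).toReal + (volume (B k)).toReal := by
    intro k
    have h1 : volume (A k) + volume (B k) = volume (Q k) := measure_inter_add_sdiff (Q k) hDm
    rw [← ENNReal.toReal_add (hAfin k) (hBfin k), h1, hQvol,
      ENNReal.toReal_ofReal (by positivity)]
  -- per-cell estimate
  have hcell : ∀ k ∈ J,
      ρ ^ 2 * f (pk k) ≤ (∫ p in A k, (f p + θ)) + (volume (B k)).toReal := by
    intro k hk
    obtain ⟨hpkD, hpkk⟩ := hpk k hk
    have hA1 : f (pk k) * (volume (A k)).toReal ≤ ∫ p in A k, (f p + θ) := by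
      have hc : ∫ _p in A k, f (pk k) = f (pk k) * (volume (A k)).toReal := by
        rw [setIntegral_const]
        simp [Measure.real, mul_comm]
      rw [← hc]
      apply setIntegral_mono_on
      · exact integrableOn_const (hAfin k)
      · exact (hfint.mono_set Set.inter_subset_right).add (integrableOn_const (hAfin k))
      · exact hAm k
      · intro p hp
        have h2 := abs_le.mp (hosc k hk p hp.2 hp.1)
        linarith [h2.1]
    have hB1 : f (pk k) * (volume (B k)).toReal ≤ (volume (B k)).toReal := by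
      have h3 := hf1 _ hpkD
      have h0 : 0 ≤ (volume (B k)).toReal := ENNReal.toReal_nonneg
      nlinarith
    calc ρ ^ 2 * f (pk k)
        = f (pk k) * (volume (A k)).toReal + f (pk k) * (volume (B k)).toReal := by
          rw [hsplit k]; ring
      _ ≤ _ := add_le_add hA1 hB1
  -- disjointness of the cells
  have hQdisj : ∀ i j, i ≠ j → Disjoint (Q i) (Q j) := by
    intro i j hij
    rw [Set.disjoint_left]
    intro p hpi hpj
    exact hij (hpi.symm.trans hpj)
  -- the `A` parts add up to the integral over `D`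
  have hAunion : (⋃ k ∈ J, A k) = D := by
    ext p
    simp only [Set.mem_iUnion, hA, hQ, Set.mem_inter_iff, Set.mem_ofPred_eq, exists_prop]
    constructor
    · rintro ⟨k, _, _, hpD⟩
      exact hpD
    · intro hp
      exact ⟨cellIdx ρ p, hJ p hp, rfl, hp⟩
  have hsumA : ∑ k ∈ J, ∫ p in A k, (f p + θ) = (∫ p in D, f p) + θ * (volume D).toReal := by
    rw [← integral_biUnion_finset J (fun k _ => hAm k) ?_ ?_, hAunion]
    · rw [integral_add hfint (integrableOn_const hDfin), setIntegral_const]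
      simp [Measure.real, mul_comm]
    · intro i _ j _ hij
      exact (hQdisj i j hij).mono Set.inter_subset_left Set.inter_subset_left
    · intro k _
      exact (hfint.mono_set Set.inter_subset_right).add (integrableOn_const (hAfin k))
  -- the `B` parts lie in the thickening minus `D`
  have hcthfin : volume (Metric.cthickening (Real.sqrt 2 * ρ) D) ≠ ⊤ :=
    (hD.isBounded.cthickening.measure_lt_top).ne
  have hBsub : (⋃ k ∈ J, B k) ⊆ Metric.cthickening (Real.sqrt 2 * ρ) D \ D := by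
    intro p hp
    simp only [Set.mem_iUnion, hB, hQ, exists_prop] at hp
    obtain ⟨k, hk, hpQ, hpD⟩ := hp
    obtain ⟨hpkD, hpkk⟩ := hpk k hk
    refine ⟨?_, hpD⟩
    apply Metric.mem_cthickening_of_dist_le p (pk k) _ D hpkD
    rw [dist_eq_norm]
    exact norm_sub_le_of_cellIdx_eq ρ hρ p (pk k) (hpQ.trans hpkk.symm)
  have hsumB : ∑ k ∈ J, (volume (B k)).toReal ≤
      (volume (Metric.cthickening (Real.sqrt 2 * ρ) D)).toReal - (volume D).toReal := by
    rw [← ENNReal.toReal_sum (fun k _ => hBfin k),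
      ← measure_biUnion_finset ?_ (fun k _ => hBm k)]
    · have hsubD : D ⊆ Metric.cthickening (Real.sqrt 2 * ρ) D :=
        Metric.self_subset_cthickening D
      have hdiff := measure_sdiff hsubD hDm.nullMeasurableSet hDfin
      rw [← ENNReal.toReal_sub_of_le (measure_mono hsubD) hcthfin, ← hdiff]
      exact ENNReal.toReal_mono
        (ne_top_of_le_ne_top hcthfin (measure_mono Set.sdiff_subset)) (measure_mono hBsub)
    · intro i _ j _ hij
      exact (hQdisj i j hij).mono Set.sdiff_subset Set.sdiff_subset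
  calc ∑ k ∈ J, ρ ^ 2 * f (pk k)
      ≤ ∑ k ∈ J, ((∫ p in A k, (f p + θ)) + (volume (B k)).toReal) :=
        Finset.sum_le_sum hcell
    _ = (∑ k ∈ J, ∫ p in A k, (f p + θ)) + ∑ k ∈ J, (volume (B k)).toReal :=
        Finset.sum_add_distrib
    _ ≤ _ := by
        rw [hsumA]
        linarith [hsumB]

end Crest.Agent.S0326
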