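import Crest.Agent.S0326.Local
import Crest.Agent.S0326.Pack
import Crest.Agent.S0326.Riemann
import Crest.Agent.S0326.Calc

/-!
# S0326 — assembly, part 1: the tiles for given parameters (helper62)
-/

set_option autoImplicit false
open MeasureTheory

namespace Crest.Agent.S0326

/-- Reindexing a finite family by `Fin k`. -/
theorem reindex {α : Type} (T : Finset α) (c a b g : α → E2) (S : Set (ℝ × E2)) (h B : ℝ)
    (h1 : ∀ i ∈ T, a i ≠ 0 ∧ ‖b i‖ = ‖a i‖ ∧ inner ℝ (a i) (b i) = (0 : ℝ))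
    (h2 : S ⊆ ⋃ i ∈ T, {z : ℝ × E2 | ∃ x ∈ Set.Icc (0 : ℝ) 1, ∃ y ∈ Set.Icc (0 : ℝ) 1,
          z.2 = c i + x • a i + y • b i + z.1 • g i})
    (h3 : ∑ i ∈ T, ‖a i‖ ^ 2 / Real.sqrt (1 + (g i 0) ^ 2 + h ^ 2 * (g i 1) ^ 2) ≤ B) :
    ∃ (k : ℕ) (c' a' b' g' : Fin k → E2),
      (∀ i, a' i ≠ 0 ∧ ‖b' i‖ = ‖a' i‖ ∧ inner ℝ (a' i) (b' i) = (0 : ℝ)) ∧
      S ⊆ ⋃ i, {z : ℝ × E2 | ∃ x ∈ Set.Icc (0 : ℝ) 1, ∃ y ∈ Set.Icc (0 : ℝ) 1,
          z.2 = c' i + x • a' i + y • b' i + z.1 • g' i} ∧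
      ∑ i, ‖a' i‖ ^ 2 / Real.sqrt (1 + (g' i 0) ^ 2 + h ^ 2 * (g' i 1) ^ 2) ≤ B := by
  classical
  refine ⟨T.card, fun j => c (T.equivFin.symm j), fun j => a (T.equivFin.symm j),
    fun j => b (T.equivFin.symm j), fun j => g (T.equivFin.symm j), ?_, ?_, ?_⟩
  · exact fun j => h1 _ (T.equivFin.symm j).2
  · intro z hz
    obtain ⟨i, hiT, hi⟩ := Set.mem_iUnion₂.1 (h2 hz)
    refine Set.mem_iUnion.2 ⟨T.equivFin ⟨i, hiT⟩, ?_⟩
    simpa using hi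
  · have e1 : ∑ j : Fin T.card, ‖a (T.equivFin.symm j)‖ ^ 2 /
          Real.sqrt (1 + (g (T.equivFin.symm j) 0) ^ 2 + h ^ 2 * (g (T.equivFin.symm j) 1) ^ 2) =
        ∑ x : T, ‖a x‖ ^ 2 / Real.sqrt (1 + (g x 0) ^ 2 + h ^ 2 * (g x 1) ^ 2) :=
      Equiv.sum_comp T.equivFin.symm
        (fun x : T => ‖a x‖ ^ 2 / Real.sqrt (1 + (g x 0) ^ 2 + h ^ 2 * (g x 1) ^ 2))
    rw [e1, Finset.sum_coe_sort T
      (fun x => ‖a x‖ ^ 2 / Real.sqrt (1 + (g x 0) ^ 2 + h ^ 2 * (g x 1) ^ 2))]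
    exact h3

/-- The tile construction for fixed parameters. -/
theorem core (D : Set E2) (V : E2 → E2) (L h : ℝ) (hL : 0 < L) (hh : 0 < h)
    (htr : ∀ p ∈ D, LinearMap.trace ℝ E2 (fderiv ℝ V p).toLinearMap = 0)
    (hdet0 : ∀ p ∈ D, LinearMap.det (fderiv ℝ V p).toLinearMap ≤ 0)
    (M κ : ℝ) (hM0 : 0 ≤ M) (hM : ∀ p ∈ D, ‖fderiv ℝ V p‖ ≤ M) (hκ : 0 < κ)
    (hκ' : ∀ p ∈ D, κ ≤ 1 + L ^ 2 * LinearMap.det (fderiv ℝ V p).toLinearMap)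
    (ρ ν η τ : ℝ) (hρ : 0 < ρ) (hν : 0 < ν) (hη : 0 < η) (hτ0 : 0 ≤ τ)
    (hdiff : ∀ p0 ∈ D, ∀ p : E2, ‖p - p0‖ ≤ Real.sqrt 2 * ρ →
      ‖V p - V p0 - fderiv ℝ V p0 (p - p0)‖ ≤ τ * ‖p - p0‖)
    (hτη : L * (τ * (Real.sqrt 2 * ρ)) ≤ η * (ν * ρ) / 2)
    (J : Finset (ℤ × ℤ)) (pk : ℤ × ℤ → E2) (hJ : ∀ p ∈ D, cellIdx ρ p ∈ J)
    (hpk : ∀ k ∈ J, pk k ∈ D ∧ cellIdx ρ (pk k) = k) :
    ∃ (T : Finset (Σ _ : ℤ × ℤ, ℤ × ℤ)) (c a b g : (Σ _ : ℤ × ℤ, ℤ × ℤ) → E2),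
      (∀ i ∈ T, a i ≠ 0 ∧ ‖b i‖ = ‖a i‖ ∧ inner ℝ (a i) (b i) = (0 : ℝ)) ∧
      {z : ℝ × E2 | ∃ p ∈ D, |z.1| ≤ L ∧ z.2 = p + z.1 • V p} ⊆
        ⋃ i ∈ T, {z : ℝ × E2 | ∃ x ∈ Set.Icc (0 : ℝ) 1, ∃ y ∈ Set.Icc (0 : ℝ) 1,
          z.2 = c i + x • a i + y • b i + z.1 • g i} ∧
      ∑ i ∈ T, ‖a i‖ ^ 2 / Real.sqrt (1 + (g i 0) ^ 2 + h ^ 2 * (g i 1) ^ 2) ≤
        (1 + η) ^ 2 * (1 + 2 * Real.sqrt 2 * ((1 + L * M) / κ + 1) * ν) ^ 2 *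
          ∑ k ∈ J, ρ ^ 2 * (Jw h (V (pk k)) +
            (1 + h) * M * (Real.sqrt 2 * ρ * ((1 + L * M) / κ * ν + 1))) := by
  classical
  have hframe : ∀ k : ℤ × ℤ, ∃ c s β γ : ℝ, c ^ 2 + s ^ 2 = 1 ∧ (k ∈ J →
      fderiv ℝ V (pk k) (frA c s) = γ • frB c s ∧ fderiv ℝ V (pk k) (frB c s) = β • frA c s ∧
      LinearMap.det (fderiv ℝ V (pk k)).toLinearMap = -(β * γ)) := by
    intro k
    by_cases hk : k ∈ J
    · obtain ⟨c, s, β, γ, h1, h2, h3, h4⟩ :=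
        exists_frameC (fderiv ℝ V (pk k)) (htr _ (hpk k hk).1)
      exact ⟨c, s, β, γ, h1, fun _ => ⟨h2, h3, h4⟩⟩
    · exact ⟨1, 0, 0, 0, by norm_num, fun h => absurd h hk⟩
  choose cf sf βf γf hcs hfr using hframe
  set r : ℝ := ν * ρ with hr
  have hrpos : 0 < r := mul_pos hν hρ
  have hLM : 0 ≤ L * M := mul_nonneg hL.le hM0
  set C : ℝ := (1 + L * M) / κ with hC
  have hCpos : 0 < C := by positivity
  set d : ℝ := Real.sqrt 2 * r * C with hd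
  have hd0 : 0 ≤ d := by positivity
  have hfin := fun k : ℤ × ℤ => finite_near ρ r d hρ hrpos hd0 (cf k) (sf k) (hcs k) (pk k) k
  let I : ℤ × ℤ → Finset (ℤ × ℤ) := fun k => (hfin k).toFinset
  have hI : ∀ k mn, mn ∈ I k ↔
      ∃ p : E2, cellIdx ρ p = k ∧ ‖lat (pk k) (cf k) (sf k) r mn - p‖ ≤ d := by
    intro k mn
    simp [I]
  refine ⟨J.sigma I,
    fun x => lat (pk x.1) (cf x.1) (sf x.1) r x.2 -
      (η * r / 2) • (frA (cf x.1) (sf x.1) + frB (cf x.1) (sf x.1)),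
    fun x => ((1 + η) * r) • frA (cf x.1) (sf x.1),
    fun x => ((1 + η) * r) • frB (cf x.1) (sf x.1),
    fun x => V (pk x.1) + fderiv ℝ V (pk x.1) (lat (pk x.1) (cf x.1) (sf x.1) r x.2 - pk x.1),
    ?_, ?_, ?_⟩
  · -- the tiles are nondegenerate squares
    rintro ⟨k, mn⟩ -
    have hpos : 0 < (1 + η) * r := by positivity
    refine ⟨?_, ?_, ?_⟩
    · intro h0
      have h1 := congrArg norm h0
      simp only [norm_smul, norm_frA _ _ (hcs k), norm_zero, mul_one, Real.norm_eq_abs] at h1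
      exact (abs_pos.2 hpos.ne').ne' h1
    · simp only [norm_smul, norm_frA _ _ (hcs k), norm_frB _ _ (hcs k)]
    · simp only [inner_smul_left, inner_smul_right, frA_inner_frB, mul_zero]
  · -- covering
    rintro ⟨t, ξ⟩ ⟨p, hpD, ht, hξ⟩
    simp only at ht hξ
    have hkJ : cellIdx ρ p ∈ J := hJ p hpD
    obtain ⟨hpkD, hpkk⟩ := hpk _ hkJ
    obtain ⟨hAa, hAb, hdetk⟩ := hfr _ hkJ
    have hnorm : ‖p - pk (cellIdx ρ p)‖ ≤ Real.sqrt 2 * ρ :=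
      norm_sub_le_of_cellIdx_eq ρ hρ p (pk (cellIdx ρ p)) hpkk.symm
    have he_norm : ‖V p - V (pk (cellIdx ρ p)) -
        fderiv ℝ V (pk (cellIdx ρ p)) (p - pk (cellIdx ρ p))‖ ≤ τ * (Real.sqrt 2 * ρ) :=
      (hdiff _ hpkD p hnorm).trans (mul_le_mul_of_nonneg_left hnorm hτ0)
    have hLe : L * ‖V p - V (pk (cellIdx ρ p)) -
        fderiv ℝ V (pk (cellIdx ρ p)) (p - pk (cellIdx ρ p))‖ ≤ η * r / 2 :=
      (mul_le_mul_of_nonneg_left he_norm hL.le).trans hτη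
    have hβγ : 0 ≤ βf (cellIdx ρ p) * γf (cellIdx ρ p) := by
      have := hdet0 _ hpkD
      rw [hdetk] at this
      linarith
    have hκk : κ ≤ 1 - L ^ 2 * (βf (cellIdx ρ p) * γf (cellIdx ρ p)) := by
      have := hκ' _ hpkD
      rw [hdetk] at this
      linarith
    obtain ⟨hβM, hγM⟩ := frame_coeff_bound (fderiv ℝ V (pk (cellIdx ρ p))) _ _ _ _
      (hcs (cellIdx ρ p)) hAa hAb
    obtain ⟨mn, ⟨x, hx, y, hy, hid⟩, hdist⟩ :=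
      local_cover (fderiv ℝ V (pk (cellIdx ρ p))) _ _ _ _ (hcs (cellIdx ρ p)) hAa hAb hβγ L M κ hL
        (hβM.trans (hM _ hpkD)) (hγM.trans (hM _ hpkD)) hκ hκk r η hrpos hη
        (pk (cellIdx ρ p)) (V (pk (cellIdx ρ p))) p _ t ht hLe
    refine Set.mem_iUnion₂.2 ⟨⟨cellIdx ρ p, mn⟩,
      Finset.mem_sigma.2 ⟨hkJ, (hI _ mn).2 ⟨p, rfl, hdist⟩⟩, x, hx, y, hy, ?_⟩
    simp only
    rw [hξ, ← hid]
    congr 2
    abel
  · -- cost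
    rw [Finset.sum_sigma, Finset.mul_sum]
    refine Finset.sum_le_sum fun k hkJ => ?_
    obtain ⟨hpkD, hpkk⟩ := hpk k hkJ
    have hJw0 : 0 ≤ Jw h (V (pk k)) := (Jw_pos h _).le
    have hθ0 : 0 ≤ (1 + h) * M * (Real.sqrt 2 * ρ * (C * ν + 1)) := by positivity
    have hterm : ∀ mn ∈ I k,
        ‖((1 + η) * r) • frA (cf k) (sf k)‖ ^ 2 /
          Real.sqrt (1 + ((V (pk k) + fderiv ℝ V (pk k)
            (lat (pk k) (cf k) (sf k) r mn - pk k)) 0) ^ 2 +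
            h ^ 2 * ((V (pk k) + fderiv ℝ V (pk k)
            (lat (pk k) (cf k) (sf k) r mn - pk k)) 1) ^ 2) ≤
        ((1 + η) * r) ^ 2 * (Jw h (V (pk k)) +
          (1 + h) * M * (Real.sqrt 2 * ρ * (C * ν + 1))) := by
      intro mn hmn
      obtain ⟨p, hpk', hdist⟩ := (hI k mn).1 hmn
      have hpos : 0 < (1 + η) * r := by positivity
      have hn : ‖((1 + η) * r) • frA (cf k) (sf k)‖ = (1 + η) * r := by
        rw [norm_smul, norm_frA _ _ (hcs k), mul_one, Real.norm_of_nonneg hpos.le]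
      rw [hn, div_eq_mul_one_div]
      refine mul_le_mul_of_nonneg_left ?_ (by positivity)
      have hlip := Jw_lipschitz h hh.le
        (V (pk k) + fderiv ℝ V (pk k) (lat (pk k) (cf k) (sf k) r mn - pk k)) (V (pk k))
      have hppk : ‖p - pk k‖ ≤ Real.sqrt 2 * ρ :=
        norm_sub_le_of_cellIdx_eq ρ hρ p (pk k) (by rw [hpk', hpkk])
      have hlatpk : ‖lat (pk k) (cf k) (sf k) r mn - pk k‖ ≤ d + Real.sqrt 2 * ρ := by
        have : lat (pk k) (cf k) (sf k) r mn - pk k =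
            (lat (pk k) (cf k) (sf k) r mn - p) + (p - pk k) := by abel
        rw [this]
        exact (norm_add_le _ _).trans (add_le_add hdist hppk)
      have hg : ‖(V (pk k) + fderiv ℝ V (pk k) (lat (pk k) (cf k) (sf k) r mn - pk k)) -
          V (pk k)‖ ≤ M * (d + Real.sqrt 2 * ρ) := by
        rw [add_sub_cancel_left]
        exact ((fderiv ℝ V (pk k)).le_opNorm _).trans
          (mul_le_mul (hM _ hpkD) hlatpk (norm_nonneg _) hM0)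
      have h1 : Jw h (V (pk k) + fderiv ℝ V (pk k) (lat (pk k) (cf k) (sf k) r mn - pk k)) ≤
          Jw h (V (pk k)) + (1 + h) * (M * (d + Real.sqrt 2 * ρ)) := by
        have := (abs_le.1 hlip).2
        have h2 : (1 + h) * ‖(V (pk k) + fderiv ℝ V (pk k)
            (lat (pk k) (cf k) (sf k) r mn - pk k)) - V (pk k)‖ ≤
            (1 + h) * (M * (d + Real.sqrt 2 * ρ)) :=
          mul_le_mul_of_nonneg_left hg (by positivity)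
        linarith
      have h3 : (1 + h) * (M * (d + Real.sqrt 2 * ρ)) =
          (1 + h) * M * (Real.sqrt 2 * ρ * (C * ν + 1)) := by
        rw [hd, hr]; ring
      rw [h3] at h1
      exact h1
    have hpack : ((I k).card : ℝ) * r ^ 2 ≤ (ρ + 2 * (d + Real.sqrt 2 * r)) ^ 2 :=
      pack ρ r d hρ hrpos hd0 (cf k) (sf k) (hcs k) (pk k) k (I k)
        (fun mn hmn => (hI k mn).1 hmn)
    calc ∑ mn ∈ I k, ‖((1 + η) * r) • frA (cf k) (sf k)‖ ^ 2 /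
          Real.sqrt (1 + ((V (pk k) + fderiv ℝ V (pk k)
            (lat (pk k) (cf k) (sf k) r mn - pk k)) 0) ^ 2 +
            h ^ 2 * ((V (pk k) + fderiv ℝ V (pk k)
            (lat (pk k) (cf k) (sf k) r mn - pk k)) 1) ^ 2)
        ≤ ∑ _mn ∈ I k, ((1 + η) * r) ^ 2 * (Jw h (V (pk k)) +
          (1 + h) * M * (Real.sqrt 2 * ρ * (C * ν + 1))) := Finset.sum_le_sum hterm
      _ = ((I k).card : ℝ) * r ^ 2 * ((1 + η) ^ 2 * (Jw h (V (pk k)) +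
          (1 + h) * M * (Real.sqrt 2 * ρ * (C * ν + 1)))) := by
        rw [Finset.sum_const, nsmul_eq_mul]; ring
      _ ≤ (ρ + 2 * (d + Real.sqrt 2 * r)) ^ 2 * ((1 + η) ^ 2 * (Jw h (V (pk k)) +
          (1 + h) * M * (Real.sqrt 2 * ρ * (C * ν + 1)))) :=
        mul_le_mul_of_nonneg_right hpack (by positivity)
      _ = (1 + η) ^ 2 * (1 + 2 * Real.sqrt 2 * (C + 1) * ν) ^ 2 *
          (ρ ^ 2 * (Jw h (V (pk k)) + (1 + h) * M * (Real.sqrt 2 * ρ * (C * ν + 1)))) := by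
        rw [hd, hr]; ring

end Crest.Agent.S0326
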