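import Mathlib

/-!
# S0326 — common definitions (helper62)

Everything for S0326 lives in `namespace Crest.Agent.S0326`.
`E2` is the Euclidean plane; a *frame* is given by two reals `c s` with `c^2+s^2=1`
(`frA c s = (c, s)`, `frB c s = (-s, c)`).
-/

set_option autoImplicit false

namespace Crest.Agent.S0326

/-- The Euclidean plane. -/
abbrev E2 : Type := EuclideanSpace ℝ (Fin 2)

/-- cost weight `J_h(g) = (1 + g₀² + h² g₁²)^(-1/2)` -/
noncomputable def Jw (h : ℝ) (g : E2) : ℝ := 1 / Real.sqrt (1 + (g 0) ^ 2 + h ^ 2 * (g 1) ^ 2)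

/-- index of the half-open grid cell of side `ρ` containing `p` -/
noncomputable def cellIdx (ρ : ℝ) (p : E2) : ℤ × ℤ := (⌊p 0 / ρ⌋, ⌊p 1 / ρ⌋)

/-- first frame vector `(c, s)` -/
noncomputable def frA (c s : ℝ) : E2 := !₂[c, s]

/-- second frame vector `(-s, c)` -/
noncomputable def frB (c s : ℝ) : E2 := !₂[-s, c]

/-- lattice point number `(m,n)` of the fine lattice of mesh `r` based at `p0` in the frame `(c,s)` -/
noncomputable def lat (p0 : E2) (c s r : ℝ) (mn : ℤ × ℤ) : E2 :=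
  p0 + (r * (mn.1 : ℝ)) • frA c s + (r * (mn.2 : ℝ)) • frB c s

/-- fine cell index of `q` w.r.t. the lattice of mesh `r` based at `p0` in the frame `(c,s)` -/
noncomputable def fineIdx (p0 : E2) (c s r : ℝ) (q : E2) : ℤ × ℤ :=
  (⌊inner ℝ (frA c s) (q - p0) / r⌋, ⌊inner ℝ (frB c s) (q - p0) / r⌋)

end Crest.Agent.S0326
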