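import Mathlib

set_option autoImplicit false

namespace Crest.Agent.S0326

local notation "E2" => EuclideanSpace ℝ (Fin 2)

theorem clm_apply_coord (A : E2 →L[ℝ] E2) (x : E2) :
    A x = x 0 • A (EuclideanSpace.single 0 1) + x 1 • A (EuclideanSpace.single 1 1) := by
  have hx : x = x 0 • (EuclideanSpace.single 0 1 : E2) + x 1 • (EuclideanSpace.single 1 1 : E2) := by
    ext i
    fin_cases i <;> simp
  conv_lhs => rw [hx]
  simp only [map_add, map_smul]

theorem trace_eq_coord (A : E2 →L[ℝ] E2) :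
    LinearMap.trace ℝ _ A.toLinearMap =
      (A (EuclideanSpace.single 0 1)) 0 + (A (EuclideanSpace.single 1 1)) 1 := by
  rw [LinearMap.trace_eq_matrix_trace ℝ (EuclideanSpace.basisFun (Fin 2) ℝ).toBasis]
  simp [Matrix.trace_fin_two, LinearMap.toMatrix_apply]

theorem det_eq_coord (A : E2 →L[ℝ] E2) :
    LinearMap.det A.toLinearMap =
      (A (EuclideanSpace.single 0 1)) 0 * (A (EuclideanSpace.single 1 1)) 1 -
        (A (EuclideanSpace.single 1 1)) 0 * (A (EuclideanSpace.single 0 1)) 1 := by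
  rw [← LinearMap.det_toMatrix (EuclideanSpace.basisFun (Fin 2) ℝ).toBasis, Matrix.det_fin_two]
  simp [LinearMap.toMatrix_apply]

/-- A trace-free symmetric quadratic form in the plane has a unit null vector. -/
theorem exists_null_dir (p w : ℝ) :
    ∃ c d : ℝ, c ^ 2 + d ^ 2 = 1 ∧ p * (c ^ 2 - d ^ 2) + 2 * w * (c * d) = 0 := by
  by_cases hp : p = 0
  · exact ⟨1, 0, by norm_num, by simp [hp]⟩
  · set ρ : ℝ := Real.sqrt (p ^ 2 + w ^ 2) with hρ
    have hρ2 : ρ ^ 2 = p ^ 2 + w ^ 2 := Real.sq_sqrt (by positivity)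
    have hpos : 0 < (ρ - w) ^ 2 + p ^ 2 := by
      have : 0 < p ^ 2 := by positivity
      nlinarith [sq_nonneg (ρ - w)]
    set n : ℝ := Real.sqrt ((ρ - w) ^ 2 + p ^ 2) with hn
    have hn2 : n ^ 2 = (ρ - w) ^ 2 + p ^ 2 := Real.sq_sqrt hpos.le
    have hnpos : 0 < n := Real.sqrt_pos.mpr hpos
    have hnne : n ≠ 0 := hnpos.ne'
    refine ⟨(ρ - w) / n, p / n, ?_, ?_⟩
    · field_simp
      linarith
    · field_simp
      linear_combination p * hρ2

/-- Frame lemma: a trace-free linear map of the Euclidean plane has an orthonormal frame `(a, b)`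
with `A a ∈ ℝ b` and `A b ∈ ℝ a`. -/
theorem exists_frame (A : E2 →L[ℝ] E2) (htr : LinearMap.trace ℝ _ A.toLinearMap = 0) :
    ∃ (a b : E2) (β γ : ℝ), ‖a‖ = 1 ∧ ‖b‖ = 1 ∧ inner ℝ a b = 0 ∧ A a = γ • b ∧ A b = β • a ∧
      LinearMap.det A.toLinearMap = -(β * γ) := by
  set p : ℝ := (A (EuclideanSpace.single 0 1)) 0 with hp
  set q : ℝ := (A (EuclideanSpace.single 1 1)) 0 with hq
  set r : ℝ := (A (EuclideanSpace.single 0 1)) 1 with hr
  have h11 : (A (EuclideanSpace.single 1 1)) 1 = -p := by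
    have := trace_eq_coord A
    rw [htr] at this
    linarith
  obtain ⟨c, d, hnorm, hcons0⟩ := exists_null_dir p ((q + r) / 2)
  have hcons : p * (c ^ 2 - d ^ 2) + (q + r) * (c * d) = 0 := by linarith
  refine ⟨!₂[c, d], !₂[-d, c], q * c ^ 2 - r * d ^ 2 - 2 * p * (c * d),
    r * c ^ 2 - q * d ^ 2 - 2 * p * (c * d), ?_, ?_, ?_, ?_, ?_, ?_⟩
  · rw [EuclideanSpace.norm_eq]
    simp only [Fin.sum_univ_two, Real.norm_eq_abs, sq_abs]
    simp [hnorm]
  · rw [EuclideanSpace.norm_eq]
    simp only [Fin.sum_univ_two, Real.norm_eq_abs, sq_abs]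
    simp
    rw [add_comm, hnorm]
  · simp [inner, Fin.sum_univ_two]
    ring
  · rw [clm_apply_coord A]
    ext i
    fin_cases i
    · simp
      rw [← hp, ← hq]
      linear_combination c * hcons - (c * p + d * q) * hnorm
    · simp
      rw [← hr, h11]
      linear_combination d * hcons - (c * r - d * p) * hnorm
  · rw [clm_apply_coord A]
    ext i
    fin_cases i
    · simp
      rw [← hp, ← hq]
      linear_combination d * hcons - (-d * p + c * q) * hnorm
    · simp
      rw [← hr, h11]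
      linear_combination (-c) * hcons - (-d * r - c * p) * hnorm
  · rw [det_eq_coord A, h11, ← hp, ← hq, ← hr]
    linear_combination (-(p * (c ^ 2 - d ^ 2) + (q + r) * (c * d))) * hcons +
      (p ^ 2 + q * r) * (c ^ 2 + d ^ 2 + 1) * hnorm

end Crest.Agent.S0326
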