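import Crest.Agent.S0326.Defs
import Crest.Agent.S0326.Frame

/-!
# S0326 — frames in coordinates (helper62; proofs by helper49)
A frame is `(frA c s, frB c s) = ((c, s), (-s, c))` with `c^2 + s^2 = 1`.
-/

set_option autoImplicit false

namespace Crest.Agent.S0326

theorem inner_E2 (p q : E2) : inner ℝ p q = p 0 * q 0 + p 1 * q 1 := by
  simp [PiLp.inner_apply, Fin.sum_univ_two]
  ring

theorem norm_sq_E2 (p : E2) : ‖p‖ ^ 2 = p 0 ^ 2 + p 1 ^ 2 := by
  rw [EuclideanSpace.norm_sq_eq]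
  simp [Fin.sum_univ_two]

theorem frA_inner_self (c s : ℝ) (hcs : c ^ 2 + s ^ 2 = 1) :
    inner ℝ (frA c s) (frA c s) = (1 : ℝ) := by
  rw [inner_E2]
  simp [frA]
  linarith

theorem frB_inner_self (c s : ℝ) (hcs : c ^ 2 + s ^ 2 = 1) :
    inner ℝ (frB c s) (frB c s) = (1 : ℝ) := by
  rw [inner_E2]
  simp [frB]
  linarith

theorem frA_inner_frB (c s : ℝ) : inner ℝ (frA c s) (frB c s) = (0 : ℝ) := by
  rw [inner_E2]
  simp [frA, frB]
  ring

theorem norm_frA (c s : ℝ) (hcs : c ^ 2 + s ^ 2 = 1) : ‖frA c s‖ = 1 := by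
  have h : ‖frA c s‖ ^ 2 = 1 := by
    rw [norm_sq_E2]
    simp [frA]
    linarith
  have h0 : 0 ≤ ‖frA c s‖ := norm_nonneg _
  nlinarith

theorem norm_frB (c s : ℝ) (hcs : c ^ 2 + s ^ 2 = 1) : ‖frB c s‖ = 1 := by
  have h : ‖frB c s‖ ^ 2 = 1 := by
    rw [norm_sq_E2]
    simp [frB]
    linarith
  have h0 : 0 ≤ ‖frB c s‖ := norm_nonneg _
  nlinarith

/-- decomposition of a vector in the frame -/
theorem frame_decomp (c s : ℝ) (hcs : c ^ 2 + s ^ 2 = 1) (w : E2) :
    w = inner ℝ (frA c s) w • frA c s + inner ℝ (frB c s) w • frB c s := by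
  ext i
  fin_cases i
  · simp [inner_E2, frA, frB]
    linear_combination (-(w 0)) * hcs
  · simp [inner_E2, frA, frB]
    linear_combination (-(w 1)) * hcs

theorem norm_sq_frame (c s : ℝ) (hcs : c ^ 2 + s ^ 2 = 1) (x y : ℝ) :
    ‖x • frA c s + y • frB c s‖ ^ 2 = x ^ 2 + y ^ 2 := by
  rw [norm_sq_E2]
  simp [frA, frB]
  linear_combination (x ^ 2 + y ^ 2) * hcs

/-- C2 in coordinates: a trace-free linear map of the plane has a frame `(c,s)` with
`A a = γ b`, `A b = β a`, and then `det A = -βγ`. -/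
theorem exists_frameC (A : E2 →L[ℝ] E2) (htr : LinearMap.trace ℝ E2 A.toLinearMap = 0) :
    ∃ c s β γ : ℝ, c ^ 2 + s ^ 2 = 1 ∧ A (frA c s) = γ • frB c s ∧ A (frB c s) = β • frA c s ∧
      LinearMap.det A.toLinearMap = -(β * γ) := by
  set p : ℝ := (A (EuclideanSpace.single 0 1)) 0 with hp
  set q : ℝ := (A (EuclideanSpace.single 1 1)) 0 with hq
  set r : ℝ := (A (EuclideanSpace.single 0 1)) 1 with hr
  have h11 : (A (EuclideanSpace.single 1 1)) 1 = -p := by
    have := trace_eq_coord A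
    rw [htr] at this
    linarith
  obtain ⟨c, d, hnorm, hcons0⟩ := exists_null_dir p ((q + r) / 2)
  have hcons : p * (c ^ 2 - d ^ 2) + (q + r) * (c * d) = 0 := by linarith
  refine ⟨c, d, q * c ^ 2 - r * d ^ 2 - 2 * p * (c * d),
    r * c ^ 2 - q * d ^ 2 - 2 * p * (c * d), hnorm, ?_, ?_, ?_⟩
  · show A !₂[c, d] = _ • !₂[-d, c]
    rw [clm_apply_coord A]
    ext i
    fin_cases i
    · simp
      rw [← hp, ← hq]
      linear_combination c * hcons - (c * p + d * q) * hnorm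
    · simp
      rw [← hr, h11]
      linear_combination d * hcons - (c * r - d * p) * hnorm
  · show A !₂[-d, c] = _ • !₂[c, d]
    rw [clm_apply_coord A]
    ext i
    fin_cases i
    · simp
      rw [← hp, ← hq]
      linear_combination d * hcons - (-d * p + c * q) * hnorm
    · simp
      rw [← hr, h11]
      linear_combination (-c) * hcons - (-d * r - c * p) * hnorm
  · rw [det_eq_coord A, h11, ← hp, ← hq, ← hr]
    linear_combination (-(p * (c ^ 2 - d ^ 2) + (q + r) * (c * d))) * hcons +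
      (p ^ 2 + q * r) * (c ^ 2 + d ^ 2 + 1) * hnorm

/-- the off-diagonal frame coefficients are bounded by the operator norm -/
theorem frame_coeff_bound (A : E2 →L[ℝ] E2) (c s β γ : ℝ) (hcs : c ^ 2 + s ^ 2 = 1)
    (hAa : A (frA c s) = γ • frB c s) (hAb : A (frB c s) = β • frA c s) :
    |β| ≤ ‖A‖ ∧ |γ| ≤ ‖A‖ := by
  constructor
  · have h1 : ‖A (frB c s)‖ ≤ ‖A‖ * ‖frB c s‖ := A.le_opNorm _
    rw [hAb, norm_smul, norm_frA c s hcs, norm_frB c s hcs, Real.norm_eq_abs] at h1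
    linarith
  · have h1 : ‖A (frA c s)‖ ≤ ‖A‖ * ‖frA c s‖ := A.le_opNorm _
    rw [hAa, norm_smul, norm_frA c s hcs, norm_frB c s hcs, Real.norm_eq_abs] at h1
    linarith

end Crest.Agent.S0326
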