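import Mathlib

set_option autoImplicit false

namespace Crest.Agent.S0326

/-- Linear covering lemma: the unit squares attached to the sheared lattice
`(m + sβ n, n + sγ m)` cover the plane as soon as `βγ ≥ 0` and `s²βγ < 1`. -/
theorem lattice_cover (β γ s x y : ℝ) (h0 : 0 ≤ β * γ) (h1 : s ^ 2 * (β * γ) < 1) :
    ∃ m n : ℤ, x - (m + s * β * n) ∈ Set.Icc (0:ℝ) 1 ∧
      y - (n + s * γ * m) ∈ Set.Icc (0:ℝ) 1 := by
  classical
  set κ : ℝ := 1 - s ^ 2 * (β * γ) with hκ
  have hκpos : 0 < κ := by linarith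
  set mf : ℤ → ℤ := fun n => ⌊x - s * β * n⌋ with hmf
  set Y : ℤ → ℝ := fun n => n + s * γ * (mf n) with hY
  have hm1 : ∀ n : ℤ, (mf n : ℝ) ≤ x - s * β * n := fun n => Int.floor_le _
  have hm2 : ∀ n : ℤ, x - s * β * n < mf n + 1 := fun n => Int.lt_floor_add_one _
  -- Y n = κ n + sγ x - sγ θ with θ ∈ [0,1)
  have hYeq : ∀ n : ℤ, Y n = κ * n + s * γ * x - s * γ * (x - s * β * n - mf n) := by
    intro n
    simp only [hY, hκ]
    ring
  have habs : ∀ n : ℤ, |s * γ * (x - s * β * n - mf n)| ≤ |s * γ| := by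
    intro n
    rw [abs_mul]
    have h1' : 0 ≤ x - s * β * n - mf n := by linarith [hm1 n]
    have h2' : x - s * β * n - mf n ≤ 1 := by linarith [hm2 n]
    rw [abs_of_nonneg h1']
    exact mul_le_of_le_one_right (abs_nonneg _) h2'
  have hYlow : ∀ n : ℤ, κ * n + s * γ * x - |s * γ| ≤ Y n := by
    intro n
    rw [hYeq n]
    have := (abs_le.mp (habs n)).2
    linarith
  have hYup : ∀ n : ℤ, Y n ≤ κ * n + s * γ * x + |s * γ| := by
    intro n
    rw [hYeq n]
    have := (abs_le.mp (habs n)).1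
    linarith
  -- step bound
  have hstep : ∀ n : ℤ, Y (n + 1) ≤ Y n + 1 := by
    intro n
    have hd : Y (n + 1) - Y n - 1 = s * γ * ((mf (n + 1) : ℝ) - mf n) := by
      simp only [hY]
      push_cast
      ring
    have hprod : 0 ≤ (s * β) * (s * γ) := by
      have : (s * β) * (s * γ) = s ^ 2 * (β * γ) := by ring
      rw [this]
      exact mul_nonneg (sq_nonneg _) h0
    have hneg : s * γ * ((mf (n + 1) : ℝ) - mf n) ≤ 0 := by
      rcases lt_trichotomy (s * β) 0 with hsb | hsb | hsb
      · -- sβ < 0: sγ ≤ 0 and mf increases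
        have hsg : s * γ ≤ 0 := by
          by_contra hcon
          have hcon := not_le.mp hcon
          have : (s * β) * (s * γ) < 0 := mul_neg_of_neg_of_pos hsb hcon
          linarith
        have hmono : mf n ≤ mf (n + 1) := by
          apply Int.floor_le_floor
          push_cast
          nlinarith
        have : (0:ℝ) ≤ (mf (n + 1) : ℝ) - mf n := by
          have : (mf n : ℝ) ≤ mf (n + 1) := by exact_mod_cast hmono
          linarith
        exact mul_nonpos_of_nonpos_of_nonneg hsg this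
      · have hmono : mf (n + 1) = mf n := by
          simp only [hmf, hsb]
          simp
        rw [hmono]
        simp
      · have hsg : 0 ≤ s * γ := by
          by_contra hcon
          have hcon := not_le.mp hcon
          have : (s * β) * (s * γ) < 0 := mul_neg_of_pos_of_neg hsb hcon
          linarith
        have hmono : mf (n + 1) ≤ mf n := by
          apply Int.floor_le_floor
          push_cast
          nlinarith
        have : (mf (n + 1) : ℝ) - mf n ≤ 0 := by
          have : (mf (n + 1) : ℝ) ≤ mf n := by exact_mod_cast hmono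
          linarith
        exact mul_nonpos_of_nonneg_of_nonpos hsg this
    linarith
  -- greatest n with Y n ≤ y
  have hbdd : ∃ b : ℤ, ∀ z : ℤ, Y z ≤ y → z ≤ b := by
    refine ⟨⌈(y - s * γ * x + |s * γ|) / κ⌉, fun z hz => ?_⟩
    have h3 : κ * z ≤ y - s * γ * x + |s * γ| := by linarith [hYlow z]
    have h4 : (z : ℝ) ≤ (y - s * γ * x + |s * γ|) / κ := by
      rw [le_div_iff₀ hκpos]
      linarith
    exact (Int.cast_le (R := ℝ)).mp (le_trans h4 (Int.le_ceil _))
  have hinh : ∃ z : ℤ, Y z ≤ y := by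
    refine ⟨⌊(y - s * γ * x - |s * γ|) / κ⌋, ?_⟩
    have h3 : ((⌊(y - s * γ * x - |s * γ|) / κ⌋ : ℤ) : ℝ) ≤ (y - s * γ * x - |s * γ|) / κ :=
      Int.floor_le _
    have h4 : κ * ((⌊(y - s * γ * x - |s * γ|) / κ⌋ : ℤ) : ℝ) ≤ y - s * γ * x - |s * γ| := by
      rw [le_div_iff₀ hκpos] at h3
      linarith
    linarith [hYup ⌊(y - s * γ * x - |s * γ|) / κ⌋]
  obtain ⟨n0, hn0, hmax⟩ := Int.exists_greatest_of_bdd hbdd hinh
  have hlt : y < Y (n0 + 1) := by
    by_contra hcon
    have hcon := not_lt.mp hcon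
    have := hmax (n0 + 1) hcon
    omega
  refine ⟨mf n0, n0, ⟨?_, ?_⟩, ⟨?_, ?_⟩⟩
  · linarith [hm1 n0]
  · linarith [hm2 n0]
  · have : Y n0 = n0 + s * γ * (mf n0) := rfl
    linarith
  · have : Y n0 = n0 + s * γ * (mf n0) := rfl
    linarith [hstep n0]

end Crest.Agent.S0326
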