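import Crest.Agent.S0326.FrameC
import Crest.Agent.S0326.Lattice

/-!
# S0326 — local covering lemma (linear model + error)
-/

set_option autoImplicit false

namespace Crest.Agent.S0326

/-- Local covering lemma.  `A` has the frame `(c,s)` with `A a = γ b`, `A b = β a`, `βγ ≥ 0`,
`L²βγ < 1` (quantified through `κ ≤ 1 - L²βγ`), `|β|,|γ| ≤ M`.  For the point `p`, time `|t| ≤ L`,
and a velocity `v0 + A (p - p0) + e` with small error `e` (`L‖e‖ ≤ η r / 2`), the moved point lies,
at time `t`, in the `(1+η)`-enlarged tile number `mn` of the lattice of mesh `r` based at `p0`,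
moving with velocity `v0 + A (lat mn - p0)`; moreover that lattice point is within `√2 r (1+LM)/κ`
of `p`. -/
theorem local_cover (A : E2 →L[ℝ] E2) (c s β γ : ℝ) (hcs : c ^ 2 + s ^ 2 = 1)
    (hAa : A (frA c s) = γ • frB c s) (hAb : A (frB c s) = β • frA c s)
    (hβγ : 0 ≤ β * γ) (L M κ : ℝ) (hL : 0 < L) (hβM : |β| ≤ M) (hγM : |γ| ≤ M)
    (hκ : 0 < κ) (hκ' : κ ≤ 1 - L ^ 2 * (β * γ))
    (r η : ℝ) (hr : 0 < r) (hη : 0 < η)
    (p0 v0 p e : E2) (t : ℝ) (ht : |t| ≤ L) (he : L * ‖e‖ ≤ η * r / 2) :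
    ∃ mn : ℤ × ℤ,
      (∃ x ∈ Set.Icc (0 : ℝ) 1, ∃ y ∈ Set.Icc (0 : ℝ) 1,
        p + t • (v0 + A (p - p0) + e) =
          (lat p0 c s r mn - (η * r / 2) • (frA c s + frB c s)) + x • (((1 + η) * r) • frA c s) +
            y • (((1 + η) * r) • frB c s) + t • (v0 + A (lat p0 c s r mn - p0))) ∧
      ‖lat p0 c s r mn - p‖ ≤ Real.sqrt 2 * r * ((1 + L * M) / κ) := by
  have hrne : r ≠ 0 := hr.ne'
  have hM0 : 0 ≤ M := le_trans (abs_nonneg β) hβM
  have ht2 : t ^ 2 ≤ L ^ 2 := by
    have := abs_le.mp ht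
    nlinarith
  have hD : κ ≤ 1 - t ^ 2 * (β * γ) := by nlinarith
  have h1 : t ^ 2 * (β * γ) < 1 := by linarith
  -- frame coordinates of p - p0 and of e
  obtain ⟨X, Y, hp⟩ : ∃ X Y : ℝ, p - p0 = (r * X) • frA c s + (r * Y) • frB c s := by
    refine ⟨inner ℝ (frA c s) (p - p0) / r, inner ℝ (frB c s) (p - p0) / r, ?_⟩
    have e1 : r * (inner ℝ (frA c s) (p - p0) / r) = inner ℝ (frA c s) (p - p0) := by field_simp
    have e2 : r * (inner ℝ (frB c s) (p - p0) / r) = inner ℝ (frB c s) (p - p0) := by field_simp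
    rw [e1, e2]
    exact frame_decomp c s hcs (p - p0)
  obtain ⟨ea, eb, he', hea, heb⟩ : ∃ ea eb : ℝ, e = ea • frA c s + eb • frB c s ∧
      |ea| ≤ ‖e‖ ∧ |eb| ≤ ‖e‖ := by
    refine ⟨inner ℝ (frA c s) e, inner ℝ (frB c s) e, frame_decomp c s hcs e, ?_, ?_⟩
    · have := abs_real_inner_le_norm (frA c s) e
      rwa [norm_frA c s hcs, one_mul] at this
    · have := abs_real_inner_le_norm (frB c s) e
      rwa [norm_frB c s hcs, one_mul] at this
  obtain ⟨m, n, ⟨hx0, hx1⟩, ⟨hy0, hy1⟩⟩ :=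
    lattice_cover β γ t (X + t * β * Y) (Y + t * γ * X) hβγ h1
  -- error terms
  have hL0 : 0 ≤ L := hL.le
  have htea : |t * ea| ≤ η * r / 2 := by
    rw [abs_mul]
    calc |t| * |ea| ≤ L * ‖e‖ := mul_le_mul ht hea (abs_nonneg _) hL0
      _ ≤ η * r / 2 := he
  have hteb : |t * eb| ≤ η * r / 2 := by
    rw [abs_mul]
    calc |t| * |eb| ≤ L * ‖e‖ := mul_le_mul ht heb (abs_nonneg _) hL0
      _ ≤ η * r / 2 := he
  have hη1 : 0 < 1 + η := by linarith
  have hden : 0 < (1 + η) * r := mul_pos hη1 hr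
  refine ⟨(m, n), ⟨(r * (X + t * β * Y - (m + t * β * n)) + t * ea + η * r / 2) / ((1 + η) * r),
    ⟨?_, ?_⟩, (r * (Y + t * γ * X - (n + t * γ * m)) + t * eb + η * r / 2) / ((1 + η) * r),
    ⟨?_, ?_⟩, ?_⟩, ?_⟩
  · apply div_nonneg _ hden.le
    have := (abs_le.mp htea).1
    nlinarith
  · rw [div_le_one hden]
    have := (abs_le.mp htea).2
    nlinarith
  · apply div_nonneg _ hden.le
    have := (abs_le.mp hteb).1
    nlinarith
  · rw [div_le_one hden]
    have := (abs_le.mp hteb).2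
    nlinarith
  · -- the vector identity
    have hAp : A (p - p0) = (r * X * γ) • frB c s + (r * Y * β) • frA c s := by
      rw [hp]
      simp only [map_add, map_smul, hAa, hAb, smul_smul]
    have hlat : lat p0 c s r (m, n) - p0 = (r * (m : ℝ)) • frA c s + (r * (n : ℝ)) • frB c s := by
      simp only [lat]
      abel
    have hAl : A (lat p0 c s r (m, n) - p0) =
        (r * (m : ℝ) * γ) • frB c s + (r * (n : ℝ) * β) • frA c s := by
      rw [hlat]
      simp only [map_add, map_smul, hAa, hAb, smul_smul]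
    have hxa : ((r * (X + t * β * Y - (m + t * β * n)) + t * ea + η * r / 2) / ((1 + η) * r)) •
        (((1 + η) * r) • frA c s) =
        (r * (X + t * β * Y - (m + t * β * n)) + t * ea + η * r / 2) • frA c s := by
      rw [smul_smul, div_mul_cancel₀ _ hden.ne']
    have hyb : ((r * (Y + t * γ * X - (n + t * γ * m)) + t * eb + η * r / 2) / ((1 + η) * r)) •
        (((1 + η) * r) • frB c s) =
        (r * (Y + t * γ * X - (n + t * γ * m)) + t * eb + η * r / 2) • frB c s := by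
      rw [smul_smul, div_mul_cancel₀ _ hden.ne']
    rw [hxa, hyb, hAp, hAl, he']
    simp only [lat]
    linear_combination (norm := module) hp
  · -- the distance bound
    have hlp : lat p0 c s r (m, n) - p =
        (r * ((m : ℝ) - X)) • frA c s + (r * ((n : ℝ) - Y)) • frB c s := by
      have hlat : lat p0 c s r (m, n) - p0 = (r * (m : ℝ)) • frA c s + (r * (n : ℝ)) • frB c s := by
        simp only [lat]
        abel
      linear_combination (norm := module) hlat - hp
    have hsq : ‖lat p0 c s r (m, n) - p‖ ^ 2 = r ^ 2 * ((X - m) ^ 2 + (Y - n) ^ 2) := by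
      rw [hlp, norm_sq_frame c s hcs]
      ring
    set P : ℝ := X - m with hP
    set Q : ℝ := Y - n with hQ
    set t1 : ℝ := X + t * β * Y - (m + t * β * n) with ht1
    set t2 : ℝ := Y + t * γ * X - (n + t * γ * m) with ht2'
    set Dn : ℝ := 1 - t ^ 2 * (β * γ) with hDn
    have hDnpos : 0 < Dn := lt_of_lt_of_le hκ hD
    have eP : Dn * P = t1 - t * β * t2 := by
      simp only [hDn, hP, ht1, ht2']; ring
    have eQ : Dn * Q = t2 - t * γ * t1 := by
      simp only [hDn, hQ, ht1, ht2']; ring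
    have hB : 0 ≤ (1 + L * M) / κ := by positivity
    have bP : |P| ≤ (1 + L * M) / κ := by
      rw [le_div_iff₀ hκ]
      have h3 : |Dn * P| ≤ 1 + L * M := by
        rw [eP]
        calc |t1 - t * β * t2| ≤ |t1| + |t * β * t2| := abs_sub _ _
          _ = |t1| + |t| * |β| * |t2| := by rw [abs_mul, abs_mul]
          _ ≤ 1 + L * M * 1 := by
              have a1 : |t1| ≤ 1 := abs_le.mpr ⟨by linarith, hx1⟩
              have a2 : |t2| ≤ 1 := abs_le.mpr ⟨by linarith, hy1⟩
              have a3 : |t| * |β| ≤ L * M := mul_le_mul ht hβM (abs_nonneg _) hL0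
              have a4 : |t| * |β| * |t2| ≤ L * M * 1 :=
                mul_le_mul a3 a2 (abs_nonneg _) (by positivity)
              linarith
          _ = 1 + L * M := by ring
      rw [abs_mul, abs_of_pos hDnpos] at h3
      calc |P| * κ ≤ |P| * Dn := mul_le_mul_of_nonneg_left hD (abs_nonneg _)
        _ = Dn * |P| := by ring
        _ ≤ 1 + L * M := h3
    have bQ : |Q| ≤ (1 + L * M) / κ := by
      rw [le_div_iff₀ hκ]
      have h3 : |Dn * Q| ≤ 1 + L * M := by
        rw [eQ]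
        calc |t2 - t * γ * t1| ≤ |t2| + |t * γ * t1| := abs_sub _ _
          _ = |t2| + |t| * |γ| * |t1| := by rw [abs_mul, abs_mul]
          _ ≤ 1 + L * M * 1 := by
              have a1 : |t1| ≤ 1 := abs_le.mpr ⟨by linarith, hx1⟩
              have a2 : |t2| ≤ 1 := abs_le.mpr ⟨by linarith, hy1⟩
              have a3 : |t| * |γ| ≤ L * M := mul_le_mul ht hγM (abs_nonneg _) hL0
              have a4 : |t| * |γ| * |t1| ≤ L * M * 1 :=
                mul_le_mul a3 a1 (abs_nonneg _) (by positivity)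
              linarith
          _ = 1 + L * M := by ring
      rw [abs_mul, abs_of_pos hDnpos] at h3
      calc |Q| * κ ≤ |Q| * Dn := mul_le_mul_of_nonneg_left hD (abs_nonneg _)
        _ = Dn * |Q| := by ring
        _ ≤ 1 + L * M := h3
    have hP2 : P ^ 2 ≤ ((1 + L * M) / κ) ^ 2 := by
      rw [← sq_abs P]; exact pow_le_pow_left₀ (abs_nonneg _) bP 2
    have hQ2 : Q ^ 2 ≤ ((1 + L * M) / κ) ^ 2 := by
      rw [← sq_abs Q]; exact pow_le_pow_left₀ (abs_nonneg _) bQ 2
    have hfin : ‖lat p0 c s r (m, n) - p‖ ^ 2 ≤ (Real.sqrt 2 * r * ((1 + L * M) / κ)) ^ 2 := by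
      rw [hsq, mul_pow, mul_pow, Real.sq_sqrt (by norm_num : (0:ℝ) ≤ 2)]
      have hr2 : 0 ≤ r ^ 2 := by positivity
      calc r ^ 2 * (P ^ 2 + Q ^ 2)
          ≤ r ^ 2 * (((1 + L * M) / κ) ^ 2 + ((1 + L * M) / κ) ^ 2) :=
            mul_le_mul_of_nonneg_left (add_le_add hP2 hQ2) hr2
        _ = 2 * r ^ 2 * ((1 + L * M) / κ) ^ 2 := by ring
    have hB' : 0 ≤ Real.sqrt 2 * r * ((1 + L * M) / κ) := by positivity
    exact (pow_le_pow_iff_left₀ (norm_nonneg _) hB' two_ne_zero).mp hfin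

end Crest.Agent.S0326
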