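import Crest.Agent.S0326.FrameC

set_option autoImplicit false
open MeasureTheory

namespace Crest.Agent.S0326

/-- coordinate maps of the Euclidean plane are measurable -/
private theorem vol_measurable_coord (i : Fin 2) : Measurable (fun p : E2 => p i) :=
  (EuclideanSpace.proj i).continuous.measurable

theorem measurable_cellIdx (ρ : ℝ) : Measurable (cellIdx ρ) := by
  unfold cellIdx
  exact (((vol_measurable_coord 0).div_const ρ).floor).prodMk
    (((vol_measurable_coord 1).div_const ρ).floor)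

theorem measurable_fineIdx (p0 : E2) (c s r : ℝ) : Measurable (fineIdx p0 c s r) := by
  unfold fineIdx
  have h1 : Measurable (fun q : E2 => inner ℝ (frA c s) (q - p0)) :=
    (continuous_const.inner (continuous_id.sub continuous_const)).measurable
  have h2 : Measurable (fun q : E2 => inner ℝ (frB c s) (q - p0)) :=
    (continuous_const.inner (continuous_id.sub continuous_const)).measurable
  exact ((h1.div_const r).floor).prodMk ((h2.div_const r).floor)

/-- membership in a half-open grid cell, in coordinates -/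
private theorem vol_floor_div_eq_iff (x ρ : ℝ) (hρ : 0 < ρ) (m : ℤ) :
    ⌊x / ρ⌋ = m ↔ x ∈ Set.Ico ((m : ℝ) * ρ) (((m : ℝ) + 1) * ρ) := by
  rw [Int.floor_eq_iff, Set.mem_Ico, le_div_iff₀ hρ, div_lt_iff₀ hρ]

/-- area of a half-open axis-parallel box -/
private theorem vol_volume_Ico_box (a0 b0 a1 b1 : ℝ) :
    volume {u : E2 | u 0 ∈ Set.Ico a0 b0 ∧ u 1 ∈ Set.Ico a1 b1} =
      ENNReal.ofReal (b0 - a0) * ENNReal.ofReal (b1 - a1) := by
  have hset : {u : E2 | u 0 ∈ Set.Ico a0 b0 ∧ u 1 ∈ Set.Ico a1 b1} =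
      (@WithLp.ofLp 2 (Fin 2 → ℝ)) ⁻¹'
        (Set.pi Set.univ fun i : Fin 2 => Set.Ico (![a0, a1] i) (![b0, b1] i)) := by
    ext u
    simp only [Set.mem_ofPred_eq, Set.mem_preimage, Set.mem_pi, Set.mem_univ, forall_true_left,
      Fin.forall_fin_two]
    rfl
  rw [hset, (PiLp.volume_preserving_ofLp (Fin 2)).measure_preimage
    (MeasurableSet.univ_pi fun i => measurableSet_Ico).nullMeasurableSet,
    Real.volume_pi_Ico, Fin.prod_univ_two]
  rfl

/-- a half-open axis-parallel grid cell of side `ρ` has area `ρ^2` -/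
theorem volume_cell (ρ : ℝ) (hρ : 0 < ρ) (k : ℤ × ℤ) :
    volume {p : E2 | cellIdx ρ p = k} = ENNReal.ofReal (ρ ^ 2) := by
  have hset : {p : E2 | cellIdx ρ p = k} =
      {u : E2 | u 0 ∈ Set.Ico ((k.1 : ℝ) * ρ) (((k.1 : ℝ) + 1) * ρ) ∧
        u 1 ∈ Set.Ico ((k.2 : ℝ) * ρ) (((k.2 : ℝ) + 1) * ρ)} := by
    ext p
    simp only [Set.mem_ofPred_eq, cellIdx, Prod.ext_iff]
    rw [vol_floor_div_eq_iff _ _ hρ, vol_floor_div_eq_iff _ _ hρ]
  rw [hset, vol_volume_Ico_box, ← ENNReal.ofReal_mul (by nlinarith)]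
  congr 1
  ring

/-- the linear map `w ↦ (⟪a, w⟫, ⟪b, w⟫)` for the frame `(a, b) = (frA c s, frB c s)` -/
private noncomputable def volRot (c s : ℝ) : E2 →L[ℝ] E2 :=
  (innerSL ℝ (frA c s)).smulRight (EuclideanSpace.single (0 : Fin 2) (1 : ℝ)) +
    (innerSL ℝ (frB c s)).smulRight (EuclideanSpace.single (1 : Fin 2) (1 : ℝ))

private theorem volRot_apply_zero (c s : ℝ) (w : E2) :
    (volRot c s w) 0 = inner ℝ (frA c s) w := by
  simp [volRot]

private theorem volRot_apply_one (c s : ℝ) (w : E2) :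
    (volRot c s w) 1 = inner ℝ (frB c s) w := by
  simp [volRot]

private theorem volRot_det (c s : ℝ) (hcs : c ^ 2 + s ^ 2 = 1) :
    LinearMap.det (volRot c s).toLinearMap = 1 := by
  rw [det_eq_coord, volRot_apply_zero, volRot_apply_one, volRot_apply_zero, volRot_apply_one]
  simp [frA, frB, inner]
  nlinarith

/-- a rotated half-open square of side `r` has area `r^2` -/
theorem volume_fineCell (p0 : E2) (c s r : ℝ) (hcs : c ^ 2 + s ^ 2 = 1) (hr : 0 < r) (mn : ℤ × ℤ) :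
    volume {q : E2 | fineIdx p0 c s r q = mn} = ENNReal.ofReal (r ^ 2) := by
  have hset : {q : E2 | fineIdx p0 c s r q = mn} =
      (fun q : E2 => q + (-p0)) ⁻¹'
        ((volRot c s).toLinearMap ⁻¹' {p : E2 | cellIdx r p = mn}) := by
    ext q
    simp only [Set.mem_ofPred_eq, Set.mem_preimage, fineIdx, cellIdx,
      ContinuousLinearMap.coe_coe, volRot_apply_zero, volRot_apply_one, sub_eq_add_neg]
  have hdet : LinearMap.det (volRot c s).toLinearMap ≠ 0 := by
    rw [volRot_det c s hcs]; exact one_ne_zero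
  rw [hset, measure_preimage_add_right, Measure.addHaar_preimage_linearMap volume hdet,
    volRot_det c s hcs, volume_cell r hr mn]
  simp

/-- area of a closed axis-parallel box -/
theorem volume_box (x0 x1 y0 y1 : ℝ) (hx : x0 ≤ x1) (hy : y0 ≤ y1) :
    volume {u : E2 | x0 ≤ u 0 ∧ u 0 ≤ x1 ∧ y0 ≤ u 1 ∧ u 1 ≤ y1} =
      ENNReal.ofReal ((x1 - x0) * (y1 - y0)) := by
  have hset : {u : E2 | x0 ≤ u 0 ∧ u 0 ≤ x1 ∧ y0 ≤ u 1 ∧ u 1 ≤ y1} =
      (@WithLp.ofLp 2 (Fin 2 → ℝ)) ⁻¹' (Set.Icc ![x0, y0] ![x1, y1]) := by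
    ext u
    simp only [Set.mem_ofPred_eq, Set.mem_preimage, Set.mem_Icc, Pi.le_def, Fin.forall_fin_two]
    constructor
    · rintro ⟨h1, h2, h3, h4⟩
      exact ⟨⟨h1, h3⟩, ⟨h2, h4⟩⟩
    · rintro ⟨⟨h1, h3⟩, ⟨h2, h4⟩⟩
      exact ⟨h1, h2, h3, h4⟩
  rw [hset, (PiLp.volume_preserving_ofLp (Fin 2)).measure_preimage
    measurableSet_Icc.nullMeasurableSet, Real.volume_Icc_pi, Fin.prod_univ_two]
  have h0 : (![x1, y1] : Fin 2 → ℝ) 0 - (![x0, y0] : Fin 2 → ℝ) 0 = x1 - x0 := rfl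
  have h1 : (![x1, y1] : Fin 2 → ℝ) 1 - (![x0, y0] : Fin 2 → ℝ) 1 = y1 - y0 := rfl
  rw [h0, h1, ← ENNReal.ofReal_mul (by linarith)]

end Crest.Agent.S0326
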